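import Vale.Agent.P103.Defs

/-! Singular chains, cochains and affine simplices. -/

namespace Vale.Agent.P103

open CategoryTheory Limits AlgebraicTopology Simplicial Opposite

/-- The coefficients. -/
noncomputable abbrev RR : ModuleCat.{0} ℝ := ModuleCat.of ℝ ℝ

/-- The standard simplex. -/
abbrev Sx (n : ℕ) : Type := stdSimplex ℝ (Fin (n + 1))

/-- The singular chain complex. -/
noncomputable abbrev KK (X : Type) [TopologicalSpace X] : ChainComplex (ModuleCat.{0} ℝ) ℕ :=
  (TopCat.toSSet.obj (TopCat.of X)).chainComplex RR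

variable {X Y : Type} [TopologicalSpace X] [TopologicalSpace Y]

/-- The chain map of a continuous map. -/
noncomputable abbrev KM (f : C(X, Y)) : KK X ⟶ KK Y :=
  SSet.chainComplexMap (TopCat.toSSet.map (TopCat.ofHom f)) RR

/-- The chain of a singular simplex. -/
noncomputable def ch {n : ℕ} (σ : C(Sx n, X)) : RR ⟶ (KK X).X n :=
  (TopCat.toSSet.obj (TopCat.of X)).ιChainComplex
    ((TopCat.toSSetObjEquiv (TopCat.of X) (op ⦋n⦌)).symm σ)

/-- The face maps. -/
noncomputable def face {n : ℕ} (i : Fin (n + 2)) : C(Sx n, Sx (n + 1)) :=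
  ⟨stdSimplex.map i.succAbove, stdSimplex.continuous_map _⟩

lemma ch_d {n : ℕ} (σ : C(Sx (n + 1), X)) :
    ch σ ≫ (KK X).d (n + 1) n = ∑ i : Fin (n + 2), (-1) ^ i.val • ch (σ.comp (face i)) := by
  rw [ch, SSet.ιChainComplex_d]
  rfl

lemma ch_map {n : ℕ} (f : C(X, Y)) (σ : C(Sx n, X)) : ch σ ≫ (KM f).f n = ch (f.comp σ) := by
  rw [ch, SSet.ι_chainComplexMap_f]
  rfl

lemma ch_ext {n : ℕ} {T : ModuleCat.{0} ℝ} {f g : (KK X).X n ⟶ T}
    (h : ∀ σ : C(Sx n, X), ch σ ≫ f = ch σ ≫ g) : f = g := by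
  refine SSet.chainComplex_hom_ext fun x => ?_
  have := h (TopCat.toSSetObjEquiv (TopCat.of X) (op ⦋n⦌) x)
  rwa [ch, Equiv.symm_apply_apply] at this

/-- The cochain of a function on simplices. -/
noncomputable def coch {n : ℕ} (c : C(Sx n, X) → ℝ) : (KK X).X n ⟶ RR :=
  ((TopCat.toSSet.obj (TopCat.of X)).isColimitChainComplexXCofan RR n).desc
    (Cofan.mk RR fun x => c (TopCat.toSSetObjEquiv (TopCat.of X) (op ⦋n⦌) x) • 𝟙 RR)

lemma ch_coch {n : ℕ} (c : C(Sx n, X) → ℝ) (σ : C(Sx n, X)) :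
    ch σ ≫ coch c = c σ • 𝟙 RR := by
  have := ((TopCat.toSSet.obj (TopCat.of X)).isColimitChainComplexXCofan RR n).fac
    (Cofan.mk RR fun x => c (TopCat.toSSetObjEquiv (TopCat.of X) (op ⦋n⦌) x) • 𝟙 RR)
    ⟨(TopCat.toSSetObjEquiv (TopCat.of X) (op ⦋n⦌)).symm σ⟩
  simp only [Cofan.mk_ι_app, Equiv.apply_symm_apply] at this
  exact this

lemma d_coch (c : C(Sx 2, X) → ℝ)
    (hc : ∀ τ : C(Sx 3, X), c (τ.comp (face 0)) - c (τ.comp (face 1)) + c (τ.comp (face 2)) -
      c (τ.comp (face 3)) = 0) : (KK X).d 3 2 ≫ coch c = 0 := by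
  refine ch_ext fun τ => ?_
  rw [← Category.assoc, ch_d (n := 2), comp_zero, Preadditive.sum_comp, Fin.sum_univ_four]
  simp only [Preadditive.zsmul_comp, ch_coch]
  have h := hc τ
  have : c (τ.comp (face 0)) = c (τ.comp (face 1)) - c (τ.comp (face 2)) + c (τ.comp (face 3)) := by
    linarith
  rw [this]
  simp only [Fin.val_zero, Fin.val_one, Fin.val_two, show ((3 : Fin 4) : ℕ) = 3 from rfl]
  module

theorem eigen_of_chain (f : C(X, X)) (z : RR ⟶ (KK X).X 2) (hz : z ≫ (KK X).d 2 1 = 0)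
    (h2 : z ≫ (KM f).f 2 ≫ (KK X).pOpcycles 2 = (2 : ℝ) • (z ≫ (KK X).pOpcycles 2))
    (c : (KK X).X 2 ⟶ RR) (hc : (KK X).d 3 2 ≫ c = 0) (hzc : z ≫ c ≠ 0) :
    (homologyMap 2 f).HasEigenvalue 2 := by
  let cl : RR ⟶ (KK X).homology 2 := (KK X).liftCycles z 1 (by simp) hz ≫ (KK X).homologyπ 2
  have hι : cl ≫ (KK X).homologyι 2 = z ≫ (KK X).pOpcycles 2 := by
    simp [cl]
  have hmap : cl ≫ HomologicalComplex.homologyMap (KM f) 2 = (2 : ℝ) • cl := by
    rw [← cancel_mono ((KK X).homologyι 2), Category.assoc,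
      HomologicalComplex.homologyι_naturality, ← Category.assoc, hι, Category.assoc,
      HomologicalComplex.p_opcyclesMap, h2, Linear.smul_comp, hι]
  have hne : cl.hom (1 : ℝ) ≠ 0 := by
    intro h0
    apply hzc
    have h1 : cl = 0 := by
      ext
      simpa using h0
    have h3 : z ≫ c = cl ≫ (KK X).homologyι 2 ≫ (KK X).descOpcycles c 3 (by simp) hc := by
      rw [← Category.assoc, hι, Category.assoc, HomologicalComplex.p_descOpcycles]
    rw [h3, h1, zero_comp]
  refine Module.End.hasEigenvalue_of_hasEigenvector (x := cl.hom (1 : ℝ)) ⟨?_, hne⟩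
  exact Module.End.mem_eigenspace_iff.2
    (congrArg (fun g : RR ⟶ (KK X).homology 2 => g.hom (1 : ℝ)) hmap)

section affine

variable {E : Type} [NormedAddCommGroup E] [NormedSpace ℝ E]

/-- The affine simplex with given vertices. -/
noncomputable def aff {n : ℕ} (v : Fin (n + 1) → E) : C(Sx n, E) :=
  ⟨fun s => ∑ i, s i • v i, by
    refine continuous_finsetSum _ fun i _ => Continuous.smul ?_ continuous_const
    exact (continuous_apply i).comp continuous_subtype_val⟩

lemma aff_face {n : ℕ} (v : Fin (n + 2) → E) (i : Fin (n + 2)) :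
    (aff v).comp (face i) = aff (v ∘ i.succAbove) := by
  ext s
  simp only [aff, face, ContinuousMap.comp_apply, ContinuousMap.coe_mk, stdSimplex.map_coe,
    FunOnFinite.linearMap_apply_apply, Finset.sum_smul, Function.comp]
  rw [← Finset.sum_fiberwise Finset.univ i.succAbove fun j => s j • v (i.succAbove j)]
  refine Finset.sum_congr rfl fun j _ => Finset.sum_congr rfl fun k hk => ?_
  rw [(Finset.mem_filter.1 hk).2]

lemma aff_one (a b : E) (s : Sx 1) : aff ![a, b] s = s 0 • a + s 1 • b := by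
  simp [aff, Fin.sum_univ_two]

lemma aff_two (a b c : E) (s : Sx 2) : aff ![a, b, c] s = s 0 • a + s 1 • b + s 2 • c := by
  simp [aff, Fin.sum_univ_three]

lemma aff2_face0 (a b c : E) : (aff ![a, b, c]).comp (face 0) = aff ![b, c] := by
  rw [aff_face]; congr 1
lemma aff2_face1 (a b c : E) : (aff ![a, b, c]).comp (face 1) = aff ![a, c] := by
  rw [aff_face]; congr 1; ext i; fin_cases i <;> rfl
lemma aff2_face2 (a b c : E) : (aff ![a, b, c]).comp (face 2) = aff ![a, b] := by
  rw [aff_face]; congr 1; ext i; fin_cases i <;> rfl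

lemma aff3_face0 (a b c d : E) : (aff ![a, b, c, d]).comp (face 0) = aff ![b, c, d] := by
  rw [aff_face]; congr 1
lemma aff3_face1 (a b c d : E) : (aff ![a, b, c, d]).comp (face 1) = aff ![a, c, d] := by
  rw [aff_face]; congr 1; ext i; fin_cases i <;> rfl
lemma aff3_face2 (a b c d : E) : (aff ![a, b, c, d]).comp (face 2) = aff ![a, b, d] := by
  rw [aff_face]; congr 1; ext i; fin_cases i <;> rfl
lemma aff3_face3 (a b c d : E) : (aff ![a, b, c, d]).comp (face 3) = aff ![a, b, c] := by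
  rw [aff_face]; congr 1; ext i; fin_cases i <;> rfl

/-- The chain of the image of an affine edge. -/
noncomputable def ed (Φ : C(E, X)) (a b : E) : RR ⟶ (KK X).X 1 := ch (Φ.comp (aff ![a, b]))

/-- The chain of the image of an affine triangle. -/
noncomputable def tr (Φ : C(E, X)) (a b c : E) : RR ⟶ (KK X).X 2 := ch (Φ.comp (aff ![a, b, c]))

lemma tr_d (Φ : C(E, X)) (a b c : E) :
    tr Φ a b c ≫ (KK X).d 2 1 = ed Φ b c - ed Φ a c + ed Φ a b := by
  rw [tr, ch_d (n := 1), Fin.sum_univ_three]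
  simp only [ContinuousMap.comp_assoc, aff2_face0, aff2_face1, aff2_face2, ed, Fin.val_zero,
    Fin.val_one, Fin.val_two]
  module

/-- The class of a triangle modulo boundaries. -/
noncomputable def tq (Φ : C(E, X)) (a b c : E) : RR ⟶ (KK X).opcycles 2 :=
  tr Φ a b c ≫ (KK X).pOpcycles 2

lemma tq_rel (Φ : C(E, X)) (a b c d : E) :
    tq Φ b c d - tq Φ a c d + tq Φ a b d - tq Φ a b c = 0 := by
  have h : ch (Φ.comp (aff ![a, b, c, d])) ≫ (KK X).d 3 2 ≫ (KK X).pOpcycles 2 = 0 := by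
    rw [HomologicalComplex.d_pOpcycles, comp_zero]
  rw [← Category.assoc, ch_d (n := 2), Preadditive.sum_comp, Fin.sum_univ_four] at h
  simp only [ContinuousMap.comp_assoc, aff3_face0, aff3_face1, aff3_face2, aff3_face3,
    Preadditive.zsmul_comp, Fin.val_zero, Fin.val_one, Fin.val_two,
    show ((3 : Fin 4) : ℕ) = 3 from rfl] at h
  rw [← h]
  simp only [tq, tr]
  module

end affine

end Vale.Agent.P103
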