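import Vale.Agent.P103.Cut

/-! The map in the chart and its elementary properties. -/

namespace Vale.Agent.P103

open Filter Topology Set

/-- Reset weight. -/
noncomputable def kap (g : ℝ) : ℝ := 1 - st (-3 / 4) 0 g
/-- Erasing weight. -/
noncomputable def era (g : ℝ) : ℝ := st 0 (1 / 2) g
/-- Weight of the pure squaring map. -/
noncomputable def sq1 (z : ℂ) : ℝ := st 3 4 (‖z‖ ^ 2)
/-- Weight near infinity. -/
noncomputable def inf1 (z : ℂ) : ℝ := st 4 16 (‖z‖ ^ 2)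
/-- Squared norm of a pair. -/
noncomputable def nu (a b : ℂ) : ℝ := ‖a‖ ^ 2 + ‖b‖ ^ 2
/-- The push. -/
noncomputable def push (a b z : ℂ) : ℝ := st (5 / 2) 3 (‖z‖ ^ 2 + nu a b / 2)
/-- The multiplier. -/
noncomputable def mul8 (a b : ℂ) : ℝ := 8 * (1 - st 6 7 (nu a b))
/-- The reading weight. -/
noncomputable def rd (a : ℂ) : ℝ := st 1 3 (‖a‖ ^ 2)

/-- Speed along the circle. -/
noncomputable def spd (g : ℝ) (a b z : ℂ) : ℝ := (1 / 6) * ((1 - g) + (1 - inf1 z) * push a b z)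
/-- New `z`. -/
noncomputable def zN (g : ℝ) (a z : ℂ) : ℂ :=
  (sq1 z + (1 - sq1 z) * (1 - era g)) • z ^ 2 + ((1 - sq1 z) * rd a) • a ^ 2
/-- New first memory coordinate. -/
noncomputable def aN (g : ℝ) (a b z : ℂ) : ℂ :=
  (1 - inf1 z) • (((1 - kap g) * mul8 a b) • b + kap g • Af (zN g a z))
/-- New second memory coordinate. -/
noncomputable def bN (g : ℝ) (a b z : ℂ) : ℂ :=
  (1 - inf1 z) • (((1 - kap g) * mul8 a b) • a + kap g • ((1 / 8 : ℝ) • Af (zN g a z ^ 2)))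

section smooth

variable {E : Type*} [NormedAddCommGroup E] [NormedSpace ℝ E] {x : E}
  {g : E → ℝ} {a b z : E → ℂ}

lemma cd_nsq (hz : ContDiffAt ℝ 1 z x) : ContDiffAt ℝ 1 (fun y => ‖z y‖ ^ 2) x :=
  contDiff_nsq.contDiffAt.comp x hz

lemma cd_st (s t : ℝ) (hg : ContDiffAt ℝ 1 g x) : ContDiffAt ℝ 1 (fun y => st s t (g y)) x :=
  (contDiff_st s t).contDiffAt.comp x hg

lemma cd_nu (ha : ContDiffAt ℝ 1 a x) (hb : ContDiffAt ℝ 1 b x) :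
    ContDiffAt ℝ 1 (fun y => nu (a y) (b y)) x := (cd_nsq ha).add (cd_nsq hb)

lemma cd_Af (hz : ContDiffAt ℝ 1 z x) : ContDiffAt ℝ 1 (fun y => Af (z y)) x :=
  contDiff_Af.contDiffAt.comp x hz

lemma cd_spd (hg : ContDiffAt ℝ 1 g x) (ha : ContDiffAt ℝ 1 a x) (hb : ContDiffAt ℝ 1 b x)
    (hz : ContDiffAt ℝ 1 z x) : ContDiffAt ℝ 1 (fun y => spd (g y) (a y) (b y) (z y)) x :=
  contDiffAt_const.mul ((contDiffAt_const.sub hg).add
    ((contDiffAt_const.sub (cd_st _ _ (cd_nsq hz))).mul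
      (cd_st _ _ ((cd_nsq hz).add ((cd_nu ha hb).div_const _)))))

lemma cd_zN (hg : ContDiffAt ℝ 1 g x) (ha : ContDiffAt ℝ 1 a x)
    (hz : ContDiffAt ℝ 1 z x) : ContDiffAt ℝ 1 (fun y => zN (g y) (a y) (z y)) x :=
  (((cd_st _ _ (cd_nsq hz)).add ((contDiffAt_const.sub (cd_st _ _ (cd_nsq hz))).mul
    (contDiffAt_const.sub (cd_st _ _ hg)))).smul (hz.pow 2)).add
    (((contDiffAt_const.sub (cd_st _ _ (cd_nsq hz))).mul (cd_st _ _ (cd_nsq ha))).smul (ha.pow 2))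

lemma cd_kap (hg : ContDiffAt ℝ 1 g x) : ContDiffAt ℝ 1 (fun y => kap (g y)) x :=
  contDiffAt_const.sub (cd_st _ _ hg)

lemma cd_mul8 (ha : ContDiffAt ℝ 1 a x) (hb : ContDiffAt ℝ 1 b x) :
    ContDiffAt ℝ 1 (fun y => mul8 (a y) (b y)) x :=
  contDiffAt_const.mul (contDiffAt_const.sub (cd_st _ _ (cd_nu ha hb)))

lemma cd_aN (hg : ContDiffAt ℝ 1 g x) (ha : ContDiffAt ℝ 1 a x) (hb : ContDiffAt ℝ 1 b x)
    (hz : ContDiffAt ℝ 1 z x) : ContDiffAt ℝ 1 (fun y => aN (g y) (a y) (b y) (z y)) x :=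
  (contDiffAt_const.sub (cd_st _ _ (cd_nsq hz))).smul
    ((((contDiffAt_const.sub (cd_kap hg)).mul (cd_mul8 ha hb)).smul hb).add
      ((cd_kap hg).smul (cd_Af (cd_zN hg ha hz))))

lemma cd_bN (hg : ContDiffAt ℝ 1 g x) (ha : ContDiffAt ℝ 1 a x) (hb : ContDiffAt ℝ 1 b x)
    (hz : ContDiffAt ℝ 1 z x) : ContDiffAt ℝ 1 (fun y => bN (g y) (a y) (b y) (z y)) x :=
  (contDiffAt_const.sub (cd_st _ _ (cd_nsq hz))).smul
    ((((contDiffAt_const.sub (cd_kap hg)).mul (cd_mul8 ha hb)).smul ha).add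
      ((cd_kap hg).smul ((cd_Af ((cd_zN hg ha hz).pow 2)).const_smul _)))

end smooth

lemma kap_nonneg (g : ℝ) : 0 ≤ kap g := by unfold kap; linarith [st_le_one (-3 / 4) 0 g]
lemma kap_le_one (g : ℝ) : kap g ≤ 1 := by unfold kap; linarith [st_nonneg (-3 / 4) 0 g]
lemma kap_one {g : ℝ} (h : g ≤ -3 / 4) : kap g = 1 := by
  rw [kap, st_zero (by norm_num) h, sub_zero]
lemma kap_zero {g : ℝ} (h : 0 ≤ g) : kap g = 0 := by
  rw [kap, st_one (by norm_num) h, sub_self]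
lemma era_zero {g : ℝ} (h : g ≤ 0) : era g = 0 := st_zero (by norm_num) h
lemma era_one {g : ℝ} (h : 1 / 2 ≤ g) : era g = 1 := st_one (by norm_num) h
lemma sq1_zero {z : ℂ} (h : ‖z‖ ^ 2 ≤ 3) : sq1 z = 0 := st_zero (by norm_num) h
lemma sq1_one {z : ℂ} (h : 4 ≤ ‖z‖ ^ 2) : sq1 z = 1 := st_one (by norm_num) h
lemma inf1_zero {z : ℂ} (h : ‖z‖ ^ 2 ≤ 4) : inf1 z = 0 := st_zero (by norm_num) h
lemma inf1_one {z : ℂ} (h : 16 ≤ ‖z‖ ^ 2) : inf1 z = 1 := st_one (by norm_num) h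
lemma mul8_eq {a b : ℂ} (h : nu a b ≤ 6) : mul8 a b = 8 := by
  rw [mul8, st_zero (by norm_num) h]; norm_num
lemma mul8_nonneg (a b : ℂ) : 0 ≤ mul8 a b := by
  unfold mul8; linarith [st_le_one 6 7 (nu a b)]
lemma mul8_le (a b : ℂ) : mul8 a b ≤ 8 := by
  unfold mul8; linarith [st_nonneg 6 7 (nu a b)]

lemma mul8_mul_le {a b : ℂ} {r : ℝ} (h0 : 0 ≤ r) (hr : r ^ 2 ≤ nu a b) : mul8 a b * r ≤ 22 := by
  by_cases h : 7 ≤ nu a b
  · rw [mul8, st_one (by norm_num) h]; norm_num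
  · have h1 : r ≤ 11 / 4 := by nlinarith
    have := mul8_le a b
    have := mul8_nonneg a b
    nlinarith

lemma pushw_nonneg (a b z : ℂ) : 0 ≤ (1 - inf1 z) * push a b z :=
  mul_nonneg (by unfold inf1; linarith [st_le_one 4 16 (‖z‖ ^ 2)]) (st_nonneg _ _ _)

lemma pushw_le (a b z : ℂ) : (1 - inf1 z) * push a b z ≤ 1 :=
  mul_le_one₀ (by unfold inf1; linarith [st_nonneg 4 16 (‖z‖ ^ 2)]) (st_nonneg _ _ _)
    (st_le_one _ _ _)

lemma zN_esc (g : ℝ) (a : ℂ) {z : ℂ} (h : 4 ≤ ‖z‖ ^ 2) : zN g a z = z ^ 2 := by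
  simp [zN, sq1_one h]

lemma aN_esc (g : ℝ) (a b : ℂ) {z : ℂ} (h : 16 ≤ ‖z‖ ^ 2) : aN g a b z = 0 := by
  simp [aN, inf1_one h]

lemma bN_esc (g : ℝ) (a b : ℂ) {z : ℂ} (h : 16 ≤ ‖z‖ ^ 2) : bN g a b z = 0 := by
  simp [bN, inf1_one h]

lemma spd_esc (g : ℝ) (a b : ℂ) {z : ℂ} (h : 16 ≤ ‖z‖ ^ 2) : spd g a b z = (1 - g) / 6 := by
  simp only [spd, inf1_one h]
  ring

lemma norm_comb_le {s k m : ℝ} {u w : ℂ} (hs0 : 0 ≤ s) (hs1 : s ≤ 1) (hk0 : 0 ≤ k) (hk1 : k ≤ 1)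
    (hm : 0 ≤ m) (hu : m * ‖u‖ ≤ 22) (hw : ‖w‖ ≤ 5) :
    ‖(1 - s) • (((1 - k) * m) • u + k • w)‖ ≤ 22 := by
  have h1 : ‖((1 - k) * m) • u + k • w‖ ≤ 22 := by
    refine (norm_add_le _ _).trans ?_
    rw [norm_smul, norm_smul, Real.norm_of_nonneg (mul_nonneg (by linarith) hm),
      Real.norm_of_nonneg hk0]
    nlinarith
  rw [norm_smul, Real.norm_of_nonneg (by linarith)]
  nlinarith [norm_nonneg (((1 - k) * m) • u + k • w)]

lemma norm_aN_le (g : ℝ) (a b z : ℂ) : ‖aN g a b z‖ ≤ 22 :=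
  norm_comb_le (st_nonneg _ _ _) (st_le_one _ _ _) (kap_nonneg _) (kap_le_one _)
    (mul8_nonneg _ _) (mul8_mul_le (norm_nonneg _) (by unfold nu; nlinarith [sq_nonneg ‖a‖]))
    (norm_Af_le _)

lemma norm_eighth_Af_le (w : ℂ) : ‖(1 / 8 : ℝ) • Af w‖ ≤ 5 / 8 := by
  rw [norm_smul, Real.norm_of_nonneg (by norm_num)]
  linarith [norm_Af_le w]

lemma norm_bN_le (g : ℝ) (a b z : ℂ) : ‖bN g a b z‖ ≤ 22 :=
  norm_comb_le (st_nonneg _ _ _) (st_le_one _ _ _) (kap_nonneg _) (kap_le_one _)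
    (mul8_nonneg _ _) (mul8_mul_le (norm_nonneg _) (by unfold nu; nlinarith [sq_nonneg ‖b‖]))
    ((norm_eighth_Af_le _).trans (by norm_num))

lemma zN_base (z : ℂ) : zN 0 0 z = z ^ 2 := by
  simp [zN, era_zero le_rfl]

lemma aN_base (z : ℂ) : aN 0 0 0 z = 0 := by
  simp [aN, kap_zero le_rfl]

lemma bN_base (z : ℂ) : bN 0 0 0 z = 0 := by
  simp [bN, kap_zero le_rfl]

/-- A point of the lifted chart. -/
structure Pt where
  /-- angle -/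
  x : ℝ
  /-- first memory coordinate -/
  a : ℂ
  /-- second memory coordinate -/
  b : ℂ
  /-- the main coordinate -/
  z : ℂ

/-- Speed at a point. -/
noncomputable def Pt.v (p : Pt) : ℝ := spd (Real.cos p.x) p.a p.b p.z

/-- The map in the lifted chart. -/
noncomputable def FF (p : Pt) : Pt :=
  ⟨p.x + p.v, aN (Real.cos p.x) p.a p.b p.z, bN (Real.cos p.x) p.a p.b p.z,
    zN (Real.cos p.x) p.a p.z⟩

lemma FF_x (p : Pt) : (FF p).x = p.x + p.v := rfl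
lemma FF_a (p : Pt) : (FF p).a = aN (Real.cos p.x) p.a p.b p.z := rfl
lemma FF_b (p : Pt) : (FF p).b = bN (Real.cos p.x) p.a p.b p.z := rfl
lemma FF_z (p : Pt) : (FF p).z = zN (Real.cos p.x) p.a p.z := rfl

lemma Pt.v_nonneg (p : Pt) : 0 ≤ p.v := by
  have := pushw_nonneg p.a p.b p.z
  have := Real.cos_le_one p.x
  unfold Pt.v spd
  linarith

lemma Pt.v_le (p : Pt) : p.v ≤ 1 / 2 := by
  have := pushw_le p.a p.b p.z
  have := Real.neg_one_le_cos p.x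
  unfold Pt.v spd
  linarith

lemma keep (k : ℕ) {x : ℝ} (h : x ≤ k * (2 * Real.pi)) :
    x + (1 - Real.cos x) / 6 ≤ k * (2 * Real.pi) := by
  have h1 := Real.abs_cos_sub_cos_le (k * (2 * Real.pi)) x
  rw [Real.cos_nat_mul_two_pi, abs_of_nonneg (a := k * (2 * Real.pi) - x) (by linarith)] at h1
  have := le_abs_self (1 - Real.cos x)
  linarith

end Vale.Agent.P103
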