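import Vale.Agent.P103.Line

/-! A singular two-cocycle of the sphere. -/

namespace Vale.Agent.P103

open Filter Topology Set ComplexConjugate

/-- A chosen section over each simplex. -/
noncomputable def sec {n : ℕ} (σ : C(Sx n, S2)) : C(Sx n, ℂ × ℂ) := (exists_sec σ).choose

lemma sec_spec {n : ℕ} (σ : C(Sx n, S2)) : Sec σ (sec σ) := (exists_sec σ).choose_spec

/-- Variation of the imaginary part along an edge. -/
noncomputable def var (φ : C(Sx 1, ℂ)) : ℝ :=
  (φ (stdSimplex.vertex 1) - φ (stdSimplex.vertex 0)).im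

open Classical in
/-- The turning of a section over an edge relative to the chosen section. -/
noncomputable def JJ (e : C(Sx 1, S2)) (a : C(Sx 1, ℂ × ℂ)) : ℝ :=
  if h : ∃ φ : C(Sx 1, ℂ), ∀ s, a s = Complex.exp (φ s) • sec e s then var h.choose else 0

lemma JJ_eq {e : C(Sx 1, S2)} {a : C(Sx 1, ℂ × ℂ)} {φ : C(Sx 1, ℂ)}
    (h : ∀ s, a s = Complex.exp (φ s) • sec e s) : JJ e a = var φ := by
  have h' : ∃ φ : C(Sx 1, ℂ), ∀ s, a s = Complex.exp (φ s) • sec e s := ⟨φ, h⟩
  rw [JJ, dif_pos h', var, var]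
  congr 1
  exact log_unique (fun s => (sec_spec e s).1) (fun s => by rw [← h'.choose_spec s, h s]) _ _

lemma JJ_mul {e : C(Sx 1, S2)} {a b : C(Sx 1, ℂ × ℂ)} (ha : Sec e a) {ψ : C(Sx 1, ℂ)}
    (h : ∀ s, b s = Complex.exp (ψ s) • a s) : JJ e b = JJ e a + var ψ := by
  obtain ⟨φ, hφ⟩ := exists_log (sec_spec e) ha
  have h2 : ∀ s, b s = Complex.exp ((φ + ψ) s) • sec e s := fun s => by
    rw [h s, hφ s, smul_smul, ContinuousMap.add_apply, Complex.exp_add, mul_comm]
  rw [JJ_eq h2, JJ_eq hφ]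
  simp only [var, ContinuousMap.add_apply, Complex.sub_im, Complex.add_im]
  ring

/-- The alternating sum of turnings around a triangle. -/
noncomputable def cS (σ : C(Sx 2, S2)) (v : C(Sx 2, ℂ × ℂ)) : ℝ :=
  JJ (σ.comp (face 0)) (v.comp (face 0)) - JJ (σ.comp (face 1)) (v.comp (face 1)) +
    JJ (σ.comp (face 2)) (v.comp (face 2))

lemma face_vertex {n : ℕ} (i : Fin (n + 2)) (j : Fin (n + 1)) :
    face i (stdSimplex.vertex j) = stdSimplex.vertex (i.succAbove j) :=
  stdSimplex.map_vertex _ _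

lemma cS_indep {σ : C(Sx 2, S2)} {v w : C(Sx 2, ℂ × ℂ)} (hv : Sec σ v) (hw : Sec σ w) :
    cS σ w = cS σ v := by
  obtain ⟨ψ, hψ⟩ := exists_log hv hw
  have h : ∀ i : Fin 3, JJ (σ.comp (face i)) (w.comp (face i)) =
      JJ (σ.comp (face i)) (v.comp (face i)) + var (ψ.comp (face i)) :=
    fun i => JJ_mul (hv.comp _) fun s => hψ _
  rw [cS, cS, h, h, h]
  simp only [var, ContinuousMap.comp_apply, face_vertex, Complex.sub_im]
  have e1 : (0 : Fin 3).succAbove (1 : Fin 2) = 2 := rfl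
  have e2 : (0 : Fin 3).succAbove (0 : Fin 2) = 1 := rfl
  have e3 : (1 : Fin 3).succAbove (1 : Fin 2) = 2 := rfl
  have e4 : (1 : Fin 3).succAbove (0 : Fin 2) = 0 := rfl
  have e5 : (2 : Fin 3).succAbove (1 : Fin 2) = 1 := rfl
  have e6 : (2 : Fin 3).succAbove (0 : Fin 2) = 0 := rfl
  rw [e1, e2, e3, e4, e5, e6]
  ring

/-- The cocycle. -/
noncomputable def cc (σ : C(Sx 2, S2)) : ℝ := cS σ (sec σ)

lemma cc_eq {σ : C(Sx 2, S2)} {v : C(Sx 2, ℂ × ℂ)} (hv : Sec σ v) : cc σ = cS σ v :=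
  cS_indep hv (sec_spec σ)

lemma face_face (j j' : Fin 4) (i i' : Fin 3)
    (h : j.succAbove ∘ i.succAbove = j'.succAbove ∘ i'.succAbove) :
    (face j : C(Sx 2, Sx 3)).comp (face i) = (face j').comp (face i') := by
  ext1 s
  simp only [face, ContinuousMap.comp_apply, ContinuousMap.coe_mk, stdSimplex.map_comp_apply]
  exact congrArg (fun g => stdSimplex.map g s) h

lemma cc_cocycle (τ : C(Sx 3, S2)) :
    cc (τ.comp (face 0)) - cc (τ.comp (face 1)) + cc (τ.comp (face 2)) -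
      cc (τ.comp (face 3)) = 0 := by
  have hv := sec_spec τ
  rw [cc_eq (hv.comp _), cc_eq (hv.comp _), cc_eq (hv.comp _), cc_eq (hv.comp _)]
  simp only [cS, ContinuousMap.comp_assoc]
  rw [face_face 0 1 0 0 (by decide), face_face 0 2 1 0 (by decide), face_face 0 3 2 0 (by decide),
    face_face 1 2 1 1 (by decide), face_face 1 3 2 1 (by decide), face_face 2 3 2 2 (by decide)]
  ring

end Vale.Agent.P103
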