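import Mathlib

/-! Smooth steps and the lacunary series. -/

namespace Vale.Agent.P103

open Filter Topology Set

/-- Smooth step from `0` at `a` to `1` at `b`. -/
noncomputable def st (a b t : ℝ) : ℝ := Real.smoothTransition ((t - a) / (b - a))

lemma st_zero {a b t : ℝ} (hab : a < b) (h : t ≤ a) : st a b t = 0 :=
  Real.smoothTransition.zero_of_nonpos
    (div_nonpos_of_nonpos_of_nonneg (by linarith) (by linarith))

lemma st_one {a b t : ℝ} (hab : a < b) (h : b ≤ t) : st a b t = 1 :=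
  Real.smoothTransition.one_of_one_le ((one_le_div (by linarith)).2 (by linarith))

lemma st_nonneg (a b t : ℝ) : 0 ≤ st a b t := Real.smoothTransition.nonneg _

lemma st_le_one (a b t : ℝ) : st a b t ≤ 1 := Real.smoothTransition.le_one _

lemma lt_of_st_lt_one {a b t : ℝ} (hab : a < b) (h : st a b t < 1) : t < b := by
  by_contra hn
  rw [st_one hab (not_lt.1 hn)] at h
  exact lt_irrefl _ h

lemma lt_of_st_pos {a b t : ℝ} (hab : a < b) (h : st a b t ≠ 0) : a < t := by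
  by_contra hn
  exact h (st_zero hab (not_lt.1 hn))

lemma contDiff_st (a b : ℝ) : ContDiff ℝ 1 (st a b) :=
  Real.smoothTransition.contDiff.comp ((contDiff_id.sub contDiff_const).div_const _)

lemma contDiff_nsq : ContDiff ℝ 1 (fun z : ℂ => ‖z‖ ^ 2) := contDiff_norm_sq ℝ

/-- Bump equal to one on `[3,9]`, supported in `[2,16]`. -/
noncomputable def bump (t : ℝ) : ℝ := st 2 3 t * (1 - st 9 16 t)

lemma bump_nonneg (t : ℝ) : 0 ≤ bump t :=
  mul_nonneg (st_nonneg _ _ _) (by linarith [st_le_one 9 16 t])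

lemma bump_le_one (t : ℝ) : bump t ≤ 1 :=
  mul_le_one₀ (st_le_one _ _ _) (by linarith [st_le_one 9 16 t]) (by linarith [st_nonneg 9 16 t])

lemma bump_low {t : ℝ} (h : t ≤ 2) : bump t = 0 := by
  rw [bump, st_zero (by norm_num) h, zero_mul]

lemma bump_high {t : ℝ} (h : 16 ≤ t) : bump t = 0 := by
  rw [bump, st_one (by norm_num) h, sub_self, mul_zero]

lemma bump_mid {t : ℝ} (h : 3 ≤ t) (h' : t ≤ 9) : bump t = 1 := by
  rw [bump, st_one (by norm_num) h, st_zero (by norm_num) h']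
  norm_num

lemma contDiff_bump : ContDiff ℝ 1 bump :=
  (contDiff_st 2 3).mul (contDiff_const.sub (contDiff_st 9 16))

/-- The basic bump map of the plane. -/
noncomputable def Bf (z : ℂ) : ℂ := bump (‖z‖ ^ 2) • z

lemma contDiff_Bf : ContDiff ℝ 1 Bf := (contDiff_bump.comp contDiff_nsq).smul contDiff_id

lemma Bf_high {z : ℂ} (h : 4 ≤ ‖z‖) : Bf z = 0 := by
  rw [Bf, bump_high (by nlinarith), zero_smul]

lemma Bf_low {z : ℂ} (h : ‖z‖ ^ 2 ≤ 2) : Bf z = 0 := by
  rw [Bf, bump_low h, zero_smul]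

lemma norm_Bf_le (z : ℂ) : ‖Bf z‖ ≤ 4 := by
  by_cases h : 4 ≤ ‖z‖
  · rw [Bf_high h]; simp
  · rw [Bf, norm_smul, Real.norm_of_nonneg (bump_nonneg _)]
    have := bump_le_one (‖z‖ ^ 2)
    have := bump_nonneg (‖z‖ ^ 2)
    have := norm_nonneg z
    nlinarith

lemma fderiv_Bf_high {z : ℂ} (h : 4 < ‖z‖) : fderiv ℝ Bf z = 0 := by
  have : Bf =ᶠ[𝓝 z] fun _ => 0 := by
    filter_upwards [(isOpen_lt continuous_const continuous_norm).mem_nhds h] with w hw
    exact Bf_high (le_of_lt hw)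
  rw [this.fderiv_eq]
  simp

lemma exists_bound_fderiv_Bf : ∃ C : ℝ, 0 ≤ C ∧ ∀ z, ‖fderiv ℝ Bf z‖ ≤ C := by
  have hc : Continuous (fderiv ℝ Bf) := contDiff_Bf.continuous_fderiv (by norm_num)
  obtain ⟨C, hC⟩ := (isCompact_closedBall (0 : ℂ) 4).exists_bound_of_continuousOn hc.continuousOn
  refine ⟨max C 0, le_max_right _ _, fun z => ?_⟩
  by_cases h : 4 < ‖z‖
  · rw [fderiv_Bf_high h]; simp
  · exact (hC z (by simpa using h)).trans (le_max_left _ _)

lemma norm_fderiv_Bf_pow {C : ℝ} (hC0 : 0 ≤ C) (hC : ∀ z, ‖fderiv ℝ Bf z‖ ≤ C) (n : ℕ) (z : ℂ) :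
    ‖fderiv ℝ (fun w : ℂ => Bf (w ^ n)) z‖ ≤ C * (4 * n) := by
  have h1 : HasFDerivAt (fun w : ℂ => w ^ n)
      ((ContinuousLinearMap.toSpanSingleton ℂ ((n : ℂ) * z ^ (n - 1))).restrictScalars ℝ) z :=
    (hasDerivAt_pow n z).hasFDerivAt.restrictScalars ℝ
  have h2 : HasFDerivAt Bf (fderiv ℝ Bf (z ^ n)) (z ^ n) :=
    (contDiff_Bf.differentiable (by norm_num) _).hasFDerivAt
  have h3 := (h2.comp z h1).fderiv
  have h4 : fderiv ℝ (fun w : ℂ => Bf (w ^ n)) z = (fderiv ℝ Bf (z ^ n)).comp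
      ((ContinuousLinearMap.toSpanSingleton ℂ ((n : ℂ) * z ^ (n - 1))).restrictScalars ℝ) := h3
  rw [h4]
  by_cases h : 4 < ‖z ^ n‖
  · rw [fderiv_Bf_high h]
    simp only [ContinuousLinearMap.zero_comp, norm_zero]
    positivity
  · refine (ContinuousLinearMap.opNorm_comp_le _ _).trans ?_
    refine mul_le_mul (hC _) ?_ (norm_nonneg _) hC0
    rw [ContinuousLinearMap.norm_restrictScalars, ContinuousLinearMap.norm_toSpanSingleton,
      norm_mul, Complex.norm_natCast, norm_pow, mul_comm]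
    refine mul_le_mul_of_nonneg_right ?_ (Nat.cast_nonneg n)
    rw [norm_pow, not_lt] at h
    by_cases h1 : ‖z‖ ≤ 1
    · exact (pow_le_one₀ (norm_nonneg z) h1).trans (by norm_num)
    · exact (pow_le_pow_right₀ (le_of_lt (not_le.1 h1)) (Nat.sub_le n 1)).trans h

/-- The terms of the lacunary series. -/
noncomputable def term (k : ℕ) (z : ℂ) : ℂ := (1 / 64 : ℝ) ^ k • Bf (z ^ (4 ^ k))

/-- The lacunary series. -/
noncomputable def Af (z : ℂ) : ℂ := ∑' k, term k z

lemma norm_term_le (k : ℕ) (z : ℂ) : ‖term k z‖ ≤ 4 * (1 / 64 : ℝ) ^ k := by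
  rw [term, norm_smul, Real.norm_of_nonneg (by positivity), mul_comm]
  exact mul_le_mul_of_nonneg_right (norm_Bf_le _) (by positivity)

lemma summable_geo : Summable fun k : ℕ => 4 * (1 / 64 : ℝ) ^ k :=
  (summable_geometric_of_lt_one (by norm_num) (by norm_num)).mul_left _

lemma summable_term (z : ℂ) : Summable fun k => term k z :=
  Summable.of_norm_bounded summable_geo fun k => norm_term_le k z

lemma contDiff_Af : ContDiff ℝ 1 Af := by
  obtain ⟨C, hC0, hC⟩ := exists_bound_fderiv_Bf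
  have hpow : ∀ n : ℕ, ContDiff ℝ 1 (fun w : ℂ => Bf (w ^ n)) := fun n =>
    contDiff_Bf.comp (contDiff_id.pow n)
  have hf : ∀ k, ContDiff ℝ ((1 : ℕ∞) : WithTop ℕ∞) (term k) := fun k =>
    (hpow (4 ^ k)).const_smul _
  refine contDiff_tsum (N := 1) (v := fun m k => if m = 0 then 4 * (1 / 64 : ℝ) ^ k else
    C * 4 * (1 / 16 : ℝ) ^ k) hf (fun m _ => ?_) (fun m k z hm => ?_)
  · by_cases h : m = 0
    · simpa [h] using summable_geo
    · simp only [h, if_false]
      exact (summable_geometric_of_lt_one (by norm_num) (by norm_num)).mul_left _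
  · have hm' : m ≤ 1 := by exact_mod_cast hm
    interval_cases m
    · simpa using norm_term_le k z
    · rw [norm_iteratedFDeriv_one]
      have hd : fderiv ℝ (term k) z =
          (1 / 64 : ℝ) ^ k • fderiv ℝ (fun w : ℂ => Bf (w ^ (4 ^ k))) z :=
        fderiv_fun_const_smul ((hpow _).differentiable (by norm_num) z) _
      rw [hd, norm_smul, Real.norm_of_nonneg (by positivity)]
      have := norm_fderiv_Bf_pow hC0 hC (4 ^ k) z
      simp only [one_ne_zero, if_false]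
      calc (1 / 64 : ℝ) ^ k * ‖fderiv ℝ (fun w : ℂ => Bf (w ^ (4 ^ k))) z‖
          ≤ (1 / 64 : ℝ) ^ k * (C * (4 * ((4 ^ k : ℕ) : ℝ))) :=
            mul_le_mul_of_nonneg_left this (by positivity)
        _ = C * 4 * ((1 / 64 : ℝ) ^ k * 4 ^ k) := by push_cast; ring
        _ = C * 4 * (1 / 16 : ℝ) ^ k := by rw [← mul_pow]; norm_num

lemma norm_Af_le (z : ℂ) : ‖Af z‖ ≤ 5 := by
  have h := tsum_of_norm_bounded summable_geo.hasSum fun k => norm_term_le k z
  rw [tsum_mul_left, tsum_geometric_of_lt_one (by norm_num) (by norm_num)] at h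
  exact h.trans (by norm_num)

lemma Af_eq (z : ℂ) : Af z = Bf z + (1 / 64 : ℝ) • Af (z ^ 4) := by
  rw [Af, (summable_term z).tsum_eq_zero_add, Af, ← (summable_term _).tsum_const_smul]
  congr 1
  · simp [term]
  · refine tsum_congr fun k => ?_
    rw [term, term, smul_smul, ← pow_mul, pow_succ' (4 : ℕ), pow_succ']

lemma Af_high {z : ℂ} (h : 4 ≤ ‖z‖) : Af z = 0 := by
  have : ∀ k, term k z = 0 := fun k => by
    rw [term, Bf_high, smul_zero]
    rw [norm_pow]
    exact h.trans (le_self_pow₀ (by linarith) (by positivity))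
  simp [Af, this]

lemma Af_mid {z : ℂ} (h : 2 ≤ ‖z‖ ^ 2) : Af z = bump (‖z‖ ^ 2) • z := by
  rw [Af_eq, Af_high (z := z ^ 4), smul_zero, add_zero, Bf]
  rw [norm_pow]
  nlinarith

lemma Af_low {z : ℂ} (h : ‖z‖ ^ 2 ≤ 2) : Af z = (1 / 64 : ℝ) • Af (z ^ 4) := by
  rw [Af_eq, Bf_low h, zero_add]

end Vale.Agent.P103
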