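import Vale.Agent.P103.Chain

/-! Spherical cycles parametrized by a rectangle. -/

namespace Vale.Agent.P103

open CategoryTheory Real

/-- The parameter space. -/
abbrev PP : Type := ℝ × ℝ × ℝ

variable {X : Type} [TopologicalSpace X]

/-- Maps that factor through polar coordinates. -/
structure Cyl (Φ : C(PP, X)) : Prop where
  per : ∀ a b t, Φ (a + 2 * π, b, t) = Φ (a, b, t)
  north : ∀ a t, Φ (a, 0, t) = Φ (0, 0, t)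
  south : ∀ a t, Φ (a, π, t) = Φ (0, π, t)

lemma aff1_pp (a₁ b₁ t₁ a₂ b₂ t₂ : ℝ) (s : Sx 1) :
    aff ![((a₁, b₁, t₁) : PP), (a₂, b₂, t₂)] s =
      (s 0 * a₁ + s 1 * a₂, s 0 * b₁ + s 1 * b₂, s 0 * t₁ + s 1 * t₂) := by
  rw [aff_one]; rfl

lemma aff2_pp (a₁ b₁ t₁ a₂ b₂ t₂ a₃ b₃ t₃ : ℝ) (s : Sx 2) :
    aff ![((a₁, b₁, t₁) : PP), (a₂, b₂, t₂), (a₃, b₃, t₃)] s =
      (s 0 * a₁ + s 1 * a₂ + s 2 * a₃, s 0 * b₁ + s 1 * b₂ + s 2 * b₃,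
        s 0 * t₁ + s 1 * t₂ + s 2 * t₃) := by
  rw [aff_two]; rfl

lemma sum1 (s : Sx 1) : s 0 + s 1 = 1 := stdSimplex.add_eq_one s

lemma sum2 (s : Sx 2) : s 0 + s 1 + s 2 = 1 := by
  have h := stdSimplex.sum_eq_one s
  rwa [Fin.sum_univ_three] at h

lemma c1 (s : Sx 1) (x : ℝ) : s 0 * x + s 1 * x = x := by
  rw [← add_mul, sum1, one_mul]

lemma c2 (s : Sx 2) (x : ℝ) : s 0 * x + s 1 * x + s 2 * x = x := by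
  rw [← add_mul, ← add_mul, sum2, one_mul]

namespace Cyl

variable {Φ : C(PP, X)} (h : Cyl Φ)
include h

lemma e_per (b₁ t₁ b₂ t₂ : ℝ) :
    Φ.comp (aff ![(2 * π, b₁, t₁), (2 * π, b₂, t₂)]) = Φ.comp (aff ![(0, b₁, t₁), (0, b₂, t₂)]) := by
  ext1 s
  simp only [ContinuousMap.comp_apply, aff1_pp, c1]
  rw [← h.per 0, zero_add]

lemma e_north (a₁ t₁ a₂ t₂ : ℝ) :
    Φ.comp (aff ![(a₁, 0, t₁), (a₂, 0, t₂)]) = Φ.comp (aff ![(0, 0, t₁), (0, 0, t₂)]) := by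
  ext1 s
  simp only [ContinuousMap.comp_apply, aff1_pp, c1]
  rw [h.north]

lemma e_south (a₁ t₁ a₂ t₂ : ℝ) :
    Φ.comp (aff ![(a₁, π, t₁), (a₂, π, t₂)]) = Φ.comp (aff ![(0, π, t₁), (0, π, t₂)]) := by
  ext1 s
  simp only [ContinuousMap.comp_apply, aff1_pp, c1]
  rw [h.south]

lemma t_per (a₁ b₁ t₁ a₂ b₂ t₂ a₃ b₃ t₃ : ℝ) :
    tq Φ (a₁ + 2 * π, b₁, t₁) (a₂ + 2 * π, b₂, t₂) (a₃ + 2 * π, b₃, t₃) =
      tq Φ (a₁, b₁, t₁) (a₂, b₂, t₂) (a₃, b₃, t₃) := by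
  unfold tq tr
  congr 2
  ext1 s
  simp only [ContinuousMap.comp_apply, aff2_pp]
  rw [← h.per (s 0 * a₁ + s 1 * a₂ + s 2 * a₃)]
  congr 2
  linear_combination (2 * π) * sum2 s

lemma t_north (a₁ t₁ a₂ t₂ a₃ t₃ : ℝ) :
    tq Φ (a₁, 0, t₁) (a₂, 0, t₂) (a₃, 0, t₃) = tq Φ (0, 0, t₁) (0, 0, t₂) (0, 0, t₃) := by
  unfold tq tr
  congr 2
  ext1 s
  simp only [ContinuousMap.comp_apply, aff2_pp, c2]
  rw [h.north]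

lemma t_south (a₁ t₁ a₂ t₂ a₃ t₃ : ℝ) :
    tq Φ (a₁, π, t₁) (a₂, π, t₂) (a₃, π, t₃) = tq Φ (0, π, t₁) (0, π, t₂) (0, π, t₃) := by
  unfold tq tr
  congr 2
  ext1 s
  simp only [ContinuousMap.comp_apply, aff2_pp, c2]
  rw [h.south]

end Cyl

/-- The spherical chain over the rectangle `[0, a] × [0, π]` at height `t`. -/
noncomputable def zch (Φ : C(PP, X)) (a t : ℝ) : RR ⟶ (KK X).X 2 :=
  tr Φ (0, 0, t) (a, 0, t) (a, π, t) - tr Φ (0, 0, t) (0, π, t) (a, π, t) -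
    tr Φ (0, 0, t) (0, 0, t) (0, 0, t) + tr Φ (0, π, t) (0, π, t) (0, π, t)

lemma zch_d {Φ : C(PP, X)} (h : Cyl Φ) (t : ℝ) : zch Φ (2 * π) t ≫ (KK X).d 2 1 = 0 := by
  simp only [zch, Preadditive.add_comp, Preadditive.sub_comp, tr_d, ed]
  rw [h.e_per 0 t π t, h.e_north 0 t (2 * π) t, h.e_south 0 t (2 * π) t]
  abel

lemma zch_q (Φ : C(PP, X)) (a t : ℝ) : zch Φ a t ≫ (KK X).pOpcycles 2 =
    tq Φ (0, 0, t) (a, 0, t) (a, π, t) - tq Φ (0, 0, t) (0, π, t) (a, π, t) -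
    tq Φ (0, 0, t) (0, 0, t) (0, 0, t) + tq Φ (0, π, t) (0, π, t) (0, π, t) := by
  simp only [zch, Preadditive.add_comp, Preadditive.sub_comp, tq]

lemma prism {E : Type} [NormedAddCommGroup E] [NormedSpace ℝ E] (Φ : C(E, X))
    (a₀ b₀ c₀ a₁ b₁ c₁ : E) :
    tq Φ a₁ b₁ c₁ = tq Φ a₀ b₀ c₀ + (tq Φ b₀ b₁ c₁ - tq Φ b₀ c₀ c₁) -
      (tq Φ a₀ a₁ c₁ - tq Φ a₀ c₀ c₁) + (tq Φ a₀ a₁ b₁ - tq Φ a₀ b₀ b₁) := by
  linear_combination (norm := abel) tq_rel Φ a₀ a₁ b₁ c₁ - tq_rel Φ a₀ b₀ b₁ c₁ +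
    tq_rel Φ a₀ b₀ c₀ c₁

lemma zch_homotopy {Φ : C(PP, X)} (h : Cyl Φ) :
    zch Φ (2 * π) 1 ≫ (KK X).pOpcycles 2 = zch Φ (2 * π) 0 ≫ (KK X).pOpcycles 2 := by
  rw [zch_q, zch_q,
    prism Φ (0, 0, 0) (2 * π, 0, 0) (2 * π, π, 0) (0, 0, 1) (2 * π, 0, 1) (2 * π, π, 1),
    prism Φ (0, 0, 0) (0, π, 0) (2 * π, π, 0) (0, 0, 1) (0, π, 1) (2 * π, π, 1),
    prism Φ (0, 0, 0) (0, 0, 0) (0, 0, 0) (0, 0, 1) (0, 0, 1) (0, 0, 1),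
    prism Φ (0, π, 0) (0, π, 0) (0, π, 0) (0, π, 1) (0, π, 1) (0, π, 1)]
  have p1 := h.t_per 0 0 0 0 0 1 0 π 1
  have p2 := h.t_per 0 0 0 0 π 0 0 π 1
  rw [zero_add] at p1 p2
  rw [p1, p2, h.t_north 0 0 0 1 (2 * π) 1, h.t_north 0 0 (2 * π) 0 (2 * π) 1,
    h.t_south 0 0 0 1 (2 * π) 1, h.t_south 0 0 (2 * π) 0 (2 * π) 1]
  abel

lemma zch_double {Φ : C(PP, X)} (h : Cyl Φ) :
    zch Φ (2 * π + 2 * π) 0 ≫ (KK X).pOpcycles 2 =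
      (2 : ℝ) • (zch Φ (2 * π) 0 ≫ (KK X).pOpcycles 2) := by
  rw [zch_q, zch_q]
  have r1 := tq_rel Φ (0, 0, 0) (2 * π, 0, 0) (2 * π + 2 * π, 0, 0) (2 * π + 2 * π, π, 0)
  have r2 := tq_rel Φ (0, 0, 0) (2 * π, 0, 0) (2 * π, π, 0) (2 * π + 2 * π, π, 0)
  have r3 := tq_rel Φ (0, 0, 0) (0, π, 0) (2 * π, π, 0) (2 * π + 2 * π, π, 0)
  have p1 := h.t_per 0 0 0 (2 * π) 0 0 (2 * π) π 0
  have p2 := h.t_per 0 0 0 0 π 0 (2 * π) π 0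
  rw [zero_add] at p1 p2
  rw [p1, h.t_north 0 0 (2 * π) 0 (2 * π + 2 * π) 0] at r1
  rw [p2] at r2
  rw [h.t_south 0 0 (2 * π) 0 (2 * π + 2 * π) 0] at r3
  linear_combination (norm := module) r2 - r1 - r3

lemma zch_map {Y : Type} [TopologicalSpace Y] (f : C(X, Y)) (Φ : C(PP, X)) (a t : ℝ) :
    zch Φ a t ≫ (KM f).f 2 = zch (f.comp Φ) a t := by
  simp only [zch, Preadditive.add_comp, Preadditive.sub_comp, tr, ch_map, ContinuousMap.comp_assoc]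

lemma zch_congr {Φ Ψ : C(PP, X)} {k a t t' : ℝ} (h : ∀ x y, Φ (x, y, t) = Ψ (k * x, y, t')) :
    zch Φ a t = zch Ψ (k * a) t' := by
  have key : ∀ a₁ b₁ a₂ b₂ a₃ b₃ : ℝ, tr Φ (a₁, b₁, t) (a₂, b₂, t) (a₃, b₃, t) =
      tr Ψ (k * a₁, b₁, t') (k * a₂, b₂, t') (k * a₃, b₃, t') := by
    intro a₁ b₁ a₂ b₂ a₃ b₃
    unfold tr
    congr 1
    ext1 s
    simp only [ContinuousMap.comp_apply, aff2_pp, c2]
    rw [h]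
    congr 2
    ring
  simp only [zch, key, mul_zero]

end Vale.Agent.P103
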