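import Mathlib

/-! The map induced on singular homology. -/

namespace Vale.Agent.P103

/-- The map `f_{*k}` induced by a continuous self-map `f` on the singular homology
`H_k(X; ℝ)` of Mathlib. -/
noncomputable def homologyMap {X : Type} [TopologicalSpace X] (k : ℕ) (f : C(X, X)) :
    Module.End ℝ (((AlgebraicTopology.singularHomologyFunctor (ModuleCat.{0} ℝ) k).obj
      (ModuleCat.of ℝ ℝ)).obj (TopCat.of X)) :=
  (((AlgebraicTopology.singularHomologyFunctor (ModuleCat.{0} ℝ) k).obj
      (ModuleCat.of ℝ ℝ)).map (TopCat.ofHom f)).hom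

end Vale.Agent.P103
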