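import Vale.Agent.P103.Defs

/-! Topological entropy by separated sets and the homological spectral radius. -/

namespace Vale.Agent.P103

open Filter

/-- `s_f(n, ε)`: the largest cardinality of a set whose distinct points satisfy `d_n > ε`. -/
noncomputable def sepCard {M : Type} [MetricSpace M] (f : M → M) (n : ℕ) (ε : ℝ) : ℕ∞ :=
  ⨆ (S : Finset M) (_ : ∀ x ∈ S, ∀ y ∈ S, x ≠ y → ∃ j < n, ε < dist (f^[j] x) (f^[j] y)),
    (S.card : ℕ∞)

/-- The topological entropy: the limit as `ε` decreases to `0` (a supremum, by monotonicity) of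
`limsup (1/n) log s_f(n, ε)`. -/
noncomputable def hTop {M : Type} [MetricSpace M] (f : M → M) : EReal :=
  ⨆ (ε : ℝ) (_ : 0 < ε),
    limsup (fun n : ℕ => ENNReal.log (sepCard f n ε : ENNReal) / (n : EReal)) atTop

/-- The largest modulus of a complex eigenvalue of `f_*` on `H_0 ⊕ ⋯ ⊕ H_d` with real
coefficients. -/
noncomputable def specRad {X : Type} [TopologicalSpace X] (d : ℕ) (f : C(X, X)) : ENNReal :=
  ⨆ (k : ℕ) (_ : k ≤ d) (μ : ℂ)
    (_ : Module.End.HasEigenvalue ((homologyMap k f).baseChange ℂ) μ), ‖μ‖ₑ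

end Vale.Agent.P103
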