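import Vale.Agent.P103.Chart

/-! Every lifted orbit turns a bounded number of times around the circle. -/

namespace Vale.Agent.P103

open Filter Topology Set Real

/-- Escaped points. -/
def Esc (p : Pt) : Prop := 4 ≤ ‖p.z‖ ^ 2

lemma Esc.next {p : Pt} (h : Esc p) : ‖(FF p).z‖ ^ 2 = (‖p.z‖ ^ 2) ^ 2 := by
  rw [FF_z, zN_esc _ _ h, norm_pow]

lemma Esc.next16 {p : Pt} (h : Esc p) : 16 ≤ ‖(FF p).z‖ ^ 2 := by
  rw [h.next]
  unfold Esc at h
  nlinarith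

lemma bounded_esc2 (n : ℕ) : ∀ p : Pt, 16 ≤ ‖p.z‖ ^ 2 → p.x ≤ 4 * π → (FF^[n] p).x ≤ 4 * π := by
  induction n with
  | zero => intro p _ h; exact h
  | succ n ih =>
    intro p h hx
    rw [Function.iterate_succ_apply]
    have he : Esc p := by unfold Esc; linarith
    refine ih _ he.next16 ?_
    have := keep 2 (x := p.x) (by push_cast; linarith)
    rw [FF_x, Pt.v, spd_esc _ _ _ h]
    push_cast at this
    linarith

lemma bounded_esc (n : ℕ) (p : Pt) (h : Esc p) (hx : p.x ≤ 4 * π - 1 / 2) :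
    (FF^[n] p).x ≤ 4 * π := by
  cases n with
  | zero => simp only [Function.iterate_zero, id]; linarith
  | succ n =>
    rw [Function.iterate_succ_apply]
    refine bounded_esc2 n _ h.next16 ?_
    rw [FF_x]
    linarith [p.v_le]

lemma zN_aligned (g : ℝ) (ζ : ℂ) (c d : ℝ) :
    zN g (d • ζ) (c • ζ) = ((sq1 (c • ζ) + (1 - sq1 (c • ζ)) * (1 - era g)) * c ^ 2 +
      ((1 - sq1 (c • ζ)) * rd (d • ζ)) * d ^ 2) • ζ ^ 2 := by
  rw [zN, smul_pow, smul_pow, smul_smul, smul_smul, ← add_smul]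

lemma nsq_smul (c : ℝ) (ζ : ℂ) : ‖c • ζ‖ ^ 2 = c ^ 2 * ‖ζ‖ ^ 2 := by
  rw [norm_smul, mul_pow, Real.norm_eq_abs, sq_abs]

lemma recover {p : Pt} {ζ : ℂ} {c : ℝ} (ha : p.a = Af ζ) (hz : p.z = c • ζ)
    (h3 : 3 ≤ ‖ζ‖ ^ 2) (h9 : ‖ζ‖ ^ 2 ≤ 9) : Esc (FF p) := by
  have ha' : p.a = (1 : ℝ) • ζ := by rw [ha, Af_mid (by linarith), bump_mid h3 h9]
  unfold Esc
  rw [FF_z, ha', hz, zN_aligned, nsq_smul, norm_pow]
  have hrd : rd ((1 : ℝ) • ζ) = 1 := by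
    rw [one_smul]; exact st_one (by norm_num) h3
  rw [hrd]
  set s := sq1 (c • ζ) with hs
  set e := era (cos p.x) with he
  set t := ‖ζ‖ ^ 2 with ht
  have s0 : 0 ≤ s := st_nonneg _ _ _
  have s1 : s ≤ 1 := st_le_one _ _ _
  have e1 : e ≤ 1 := st_le_one _ _ _
  have key : 3 * s ≤ s * (c ^ 2 * t) := by
    by_cases h0 : s = 0
    · simp [h0]
    · have := lt_of_st_pos (by norm_num) h0
      rw [nsq_smul] at this
      nlinarith
  have h1 : 0 ≤ (1 - s) * (1 - e) * (c ^ 2 * t) :=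
    mul_nonneg (mul_nonneg (by linarith) (by linarith)) (by positivity)
  have h2 : 3 ≤ ((s + (1 - s) * (1 - e)) * c ^ 2 + (1 - s) * 1 * 1 ^ 2) * t := by nlinarith
  rw [← mul_pow]
  nlinarith

/-- Points that carry the orbit of `ζ` under squaring in their memory. -/
def Good (p : Pt) (ζ : ℂ) : Prop :=
  π ≤ p.x ∧ p.x ≤ 2 * π ∧ p.a = Af ζ ∧ p.b = (1 / 8 : ℝ) • Af (ζ ^ 2) ∧ ‖ζ‖ ^ 2 ≤ 4 ∧
    ∃ c : ℝ, 0 ≤ c ∧ c ≤ 1 ∧ p.z = c • ζ ∧ (p.x < 3 * π / 2 → c = 1)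

lemma cos_nonpos_of {x : ℝ} (h1 : π ≤ x) (h2 : x < 3 * π / 2) : cos x ≤ 0 :=
  Real.cos_nonpos_of_pi_div_two_le_of_le (by linarith [pi_pos]) (by linarith)

lemma lt_of_kap_ne {x : ℝ} (h2 : x ≤ 2 * π) (h : kap (cos x) ≠ 0) : x < 3 * π / 2 := by
  by_contra hn
  apply h
  apply kap_zero
  rw [← Real.cos_sub_two_pi]
  exact Real.cos_nonneg_of_mem_Icc ⟨by linarith, by linarith [pi_pos]⟩

lemma Good.low {p : Pt} {ζ : ℂ} (h : Good p ζ) (ht : ‖ζ‖ ^ 2 ≤ 2) : Good (FF p) (ζ ^ 2) := by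
  obtain ⟨h1, h2, ha, hb, -, c, c0, c1, hz, hc⟩ := h
  have hzt : ‖p.z‖ ^ 2 ≤ 2 := by
    rw [hz, nsq_smul]
    have : c ^ 2 ≤ 1 := by nlinarith
    nlinarith [sq_nonneg ‖ζ‖]
  have hna : ‖p.a‖ ≤ 5 / 64 := by
    rw [ha, Af_low ht, norm_smul, Real.norm_of_nonneg (by norm_num)]
    linarith [norm_Af_le (ζ ^ 4)]
  have hnb : ‖p.b‖ ≤ 5 / 8 := by rw [hb]; exact norm_eighth_Af_le _
  have hna2 : ‖p.a‖ ^ 2 ≤ 1 / 2 := by nlinarith [norm_nonneg p.a]
  have hnb2 : ‖p.b‖ ^ 2 ≤ 1 / 2 := by nlinarith [norm_nonneg p.b]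
  have hnu : nu p.a p.b ≤ 1 := by unfold nu; linarith
  have hpush : push p.a p.b p.z = 0 := st_zero (by norm_num) (by linarith)
  have hrd : rd p.a = 0 := st_zero (by norm_num) (by linarith)
  have hs : sq1 p.z = 0 := sq1_zero (by linarith)
  have hi : inf1 p.z = 0 := inf1_zero (by linarith)
  have hm : mul8 p.a p.b = 8 := mul8_eq (by linarith)
  have hzN : zN (cos p.x) p.a p.z = ((1 - era (cos p.x)) * c ^ 2) • ζ ^ 2 := by
    rw [zN, hs, hrd, hz, smul_pow, smul_smul]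
    simp
  have hone : p.x < 3 * π / 2 → (1 - era (cos p.x)) * c ^ 2 = 1 := fun hx => by
    rw [hc hx, era_zero (cos_nonpos_of h1 hx)]
    norm_num
  have hv : p.v = (1 - cos p.x) / 6 := by
    rw [Pt.v, spd, hpush]; ring
  have hex : kap (cos p.x) = 0 ∨ zN (cos p.x) p.a p.z = ζ ^ 2 := by
    by_cases hk : kap (cos p.x) = 0
    · exact Or.inl hk
    · right
      rw [hzN, hone (lt_of_kap_ne h2 hk), one_smul]
  have e0 : 0 ≤ era (cos p.x) := st_nonneg _ _ _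
  have e1 : era (cos p.x) ≤ 1 := st_le_one _ _ _
  refine ⟨by rw [FF_x]; linarith [p.v_nonneg], ?_, ?_, ?_, ?_,
    (1 - era (cos p.x)) * c ^ 2, mul_nonneg (by linarith) (sq_nonneg c), ?_, hzN, ?_⟩
  · have := keep 1 (x := p.x) (by push_cast; linarith)
    rw [FF_x, hv]
    push_cast at this
    linarith
  · rw [FF_a, aN, hi, hm, hb]
    rcases hex with hk | hk
    · rw [hk]; module
    · rw [hk]; module
  · rw [FF_b, bN, hi, hm]
    rcases hex with hk | hk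
    · rw [hk, ha, Af_low ht, ← pow_mul]; module
    · rw [hk, ha, Af_low ht, ← pow_mul]; module
  · rw [norm_pow]
    nlinarith [sq_nonneg ‖ζ‖]
  · have : c ^ 2 ≤ 1 := by nlinarith
    nlinarith [sq_nonneg c]
  · intro hx
    rw [FF_x] at hx
    exact hone (by linarith [p.v_nonneg])

lemma Good.mid {p : Pt} {ζ : ℂ} (h : Good p ζ) (h2t : 2 < ‖ζ‖ ^ 2) (ht : ‖ζ‖ ^ 2 < 3) :
    Esc (FF p) ∨ Esc (FF (FF p)) := by
  obtain ⟨h1, h2, ha, hb, -, c, c0, c1, hz, hc⟩ := h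
  have hzt : ‖p.z‖ ^ 2 ≤ 3 := by
    rw [hz, nsq_smul]
    have : c ^ 2 ≤ 1 := by nlinarith
    nlinarith [sq_nonneg ‖ζ‖]
  have ha' : p.a = bump (‖ζ‖ ^ 2) • ζ := by rw [ha, Af_mid h2t.le]
  have hna2 : ‖p.a‖ ^ 2 ≤ 3 := by
    rw [ha', nsq_smul]
    have := bump_nonneg (‖ζ‖ ^ 2)
    have := bump_le_one (‖ζ‖ ^ 2)
    have : bump (‖ζ‖ ^ 2) ^ 2 ≤ 1 := by nlinarith
    nlinarith [sq_nonneg ‖ζ‖]
  have hnb : ‖p.b‖ ≤ 5 / 8 := by rw [hb]; exact norm_eighth_Af_le _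
  have hnb2 : ‖p.b‖ ^ 2 ≤ 1 / 2 := by nlinarith [norm_nonneg p.b]
  have hm : mul8 p.a p.b = 8 := mul8_eq (by unfold nu; linarith)
  have hs : sq1 (c • ζ) = 0 := sq1_zero (by rw [← hz]; exact hzt)
  have hi : inf1 p.z = 0 := inf1_zero (by linarith)
  have hzN : (FF p).z = ((1 - era (cos p.x)) * c ^ 2 +
      rd (bump (‖ζ‖ ^ 2) • ζ) * bump (‖ζ‖ ^ 2) ^ 2) • ζ ^ 2 := by
    rw [FF_z, ha', hz, zN_aligned, hs]
    simp
  have hr : 0 ≤ rd (bump (‖ζ‖ ^ 2) • ζ) * bump (‖ζ‖ ^ 2) ^ 2 :=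
    mul_nonneg (st_nonneg _ _ _) (sq_nonneg _)
  by_cases hk : kap (cos p.x) = 0
  · right
    refine recover (ζ := ζ ^ 2) ?_ hzN ?_ ?_
    · rw [FF_a, aN, hi, hm, hb, hk]; module
    · rw [norm_pow]; nlinarith
    · rw [norm_pow]; nlinarith
  · left
    have hx := lt_of_kap_ne h2 hk
    unfold Esc
    rw [hzN, nsq_smul, norm_pow, hc hx, era_zero (cos_nonpos_of h1 hx)]
    set r := rd (bump (‖ζ‖ ^ 2) • ζ) * bump (‖ζ‖ ^ 2) ^ 2
    have : 1 ≤ ((1 - 0) * 1 ^ 2 + r) ^ 2 := by nlinarith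
    have : 4 ≤ (‖ζ‖ ^ 2) ^ 2 := by nlinarith
    nlinarith

lemma bounded_good (n : ℕ) : ∀ (p : Pt) (ζ : ℂ), Good p ζ → (FF^[n] p).x ≤ 4 * π := by
  have hpi := Real.pi_gt_three
  induction n with
  | zero => intro p ζ h; simp only [Function.iterate_zero, id]; linarith [h.2.1]
  | succ n ih =>
    intro p ζ h
    rw [Function.iterate_succ_apply]
    have hx : (FF p).x ≤ 2 * π + 1 / 2 := by rw [FF_x]; linarith [h.2.1, p.v_le]
    by_cases h2 : ‖ζ‖ ^ 2 ≤ 2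
    · exact ih _ _ (h.low h2)
    by_cases h3 : ‖ζ‖ ^ 2 < 3
    · rcases h.mid (not_le.1 h2) h3 with he | he
      · exact bounded_esc n _ he (by linarith)
      · cases n with
        | zero => simp only [Function.iterate_zero, id]; linarith
        | succ n =>
          rw [Function.iterate_succ_apply]
          refine bounded_esc n _ he ?_
          rw [FF_x]
          linarith [(FF p).v_le]
    · obtain ⟨-, -, ha, -, h4, c, -, -, hz, -⟩ := h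
      exact bounded_esc n _ (recover ha hz (not_lt.1 h3) (by linarith)) (by linarith)

lemma cos_reset {x : ℝ} (h1 : π ≤ x) (h2 : x ≤ π + 1 / 2) : cos x ≤ -3 / 4 := by
  have h := Real.one_sub_sq_div_two_le_cos (x := x - π)
  rw [Real.cos_sub_pi] at h
  nlinarith

lemma bounded (n : ℕ) : ∀ p : Pt, p.x ≤ π + 1 / 2 → (FF^[n] p).x ≤ 4 * π := by
  have hpi := Real.pi_gt_three
  induction n with
  | zero => intro p h; simp only [Function.iterate_zero, id]; linarith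
  | succ n ih =>
    intro p h
    by_cases he : Esc p
    · exact bounded_esc _ p he (by linarith)
    rw [Function.iterate_succ_apply]
    by_cases hx : p.x < π
    · exact ih _ (by rw [FF_x]; linarith [p.v_le])
    have hx' : (FF p).x ≤ π + 1 := by rw [FF_x]; linarith [p.v_le]
    by_cases he' : Esc (FF p)
    · exact bounded_esc _ _ he' (by linarith)
    have hk := kap_one (cos_reset (not_lt.1 hx) h)
    have hi : inf1 p.z = 0 := inf1_zero (le_of_lt (not_le.1 he))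
    refine bounded_good n _ (FF p).z ⟨by rw [FF_x]; linarith [p.v_nonneg], by linarith, ?_, ?_,
      le_of_lt (not_le.1 he'), 1, zero_le_one, le_rfl, (one_smul _ _).symm, fun _ => rfl⟩
    · rw [FF_a, aN, hi, hk, FF_z]; module
    · rw [FF_b, bN, hi, hk, FF_z]; module

end Vale.Agent.P103
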