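import Mathlib

/-! Zero entropy from boundedly many exceptional times. -/

namespace Vale.Agent.P103

open Filter Topology Set

/-- Every orbit is, except at `K` times, close to `p` before some time and to `q` after it. -/
def Tame {X : Type*} [PseudoMetricSpace X] (T : X → X) (p q : X) : Prop :=
  ∀ ε > 0, ∃ K : ℕ, ∀ (y : X) (n : ℕ), ∃ τ : ℕ, ∃ E : Finset ℕ, E.card ≤ K ∧
    ∀ j < n, j ∉ E → dist (T^[j] y) (if j < τ then p else q) < ε

lemma exists_enum (K n : ℕ) (E : Finset ℕ) (hE : E.card ≤ K) :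
    ∃ e : Fin K → Fin (n + 1), ∀ j ∈ E, j < n → ∃ i, (e i : ℕ) = j := by
  classical
  refine ⟨fun i => ⟨min (E.toList.getD i 0) n, by omega⟩, fun j hj hjn => ?_⟩
  have hm : j ∈ E.toList := Finset.mem_toList.2 hj
  obtain ⟨k, hk, hkj⟩ := List.getElem_of_mem hm
  have hk' : k < K := by
    rw [Finset.length_toList] at hk
    omega
  refine ⟨⟨k, hk'⟩, ?_⟩
  simp only
  rw [List.getD_eq_getElem _ _ hk, hkj]
  omega

lemma Tame.code {X : Type*} [PseudoMetricSpace X] [CompactSpace X] {T : X → X} {p q : X}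
    (h : Tame T p q) {ε : ℝ} (hε : 0 < ε) :
    ∃ C K : ℕ, ∀ n : ℕ, ∃ code : X → Fin (C * (n + 1) ^ K),
      ∀ y y', code y = code y' → ∀ j < n, dist (T^[j] y) (T^[j] y') < ε := by
  classical
  obtain ⟨K, hK⟩ := h (ε / 2) (by positivity)
  obtain ⟨A, -, hAf, hA⟩ := finite_cover_balls_of_compact (isCompact_univ (X := X))
    (e := ε / 2) (by positivity)
  have hA' : ∀ x : X, ∃ a : hAf.toFinset, dist x a < ε / 2 := by
    intro x
    have := hA (mem_univ x)
    simp only [mem_iUnion, Metric.mem_ball] at this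
    obtain ⟨a, ha, hx⟩ := this
    exact ⟨⟨a, by simpa using ha⟩, hx⟩
  choose near hnear using hA'
  refine ⟨hAf.toFinset.card ^ K, K + 1, fun n => ?_⟩
  choose τ E hE hτ using fun y => hK y n
  choose e he using fun y => exists_enum K n (E y) (hE y)
  let cd : X → Fin (n + 1) × (Fin K → Fin (n + 1) × hAf.toFinset) := fun y =>
    (⟨min (τ y) n, by omega⟩, fun i => (e y i, near (T^[e y i] y)))
  have hcard : Fintype.card (Fin (n + 1) × (Fin K → Fin (n + 1) × hAf.toFinset)) =
      hAf.toFinset.card ^ K * (n + 1) ^ (K + 1) := by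
    simp only [Fintype.card_prod, Fintype.card_fin, Fintype.card_fun, Fintype.card_coe, mul_pow]
    ring
  let eqv := Fintype.equivFinOfCardEq hcard
  refine ⟨fun y => eqv (cd y), fun y y' hy j hj => ?_⟩
  have hc : cd y = cd y' := eqv.injective hy
  have h1 : min (τ y) n = min (τ y') n := congrArg (fun c => (c.1 : ℕ)) hc
  have h2 : ∀ i, e y i = e y' i := fun i => congrArg (fun c => (c.2 i).1) hc
  have h3 : ∀ i, near (T^[e y i] y) = near (T^[e y' i] y') :=
    fun i => congrArg (fun c => (c.2 i).2) hc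
  by_cases hi : ∃ i, (e y i : ℕ) = j
  · obtain ⟨i, hi⟩ := hi
    have h4 := h3 i
    rw [← h2 i, hi] at h4
    have a1 := hnear (T^[j] y)
    have a2 := hnear (T^[j] y')
    rw [← h4] at a2
    have := dist_triangle_right (T^[j] y) (T^[j] y') (near (T^[j] y) : X)
    linarith
  · have n1 : j ∉ E y := fun hm => hi (he y j hm hj)
    have n2 : j ∉ E y' := fun hm => by
      obtain ⟨i, hi'⟩ := he y' j hm hj
      exact hi ⟨i, by rw [h2 i, hi']⟩
    have a1 := hτ y j hj n1
    have a2 := hτ y' j hj n2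
    have h5 : (j < τ y) ↔ (j < τ y') := by omega
    simp only [← h5] at a2
    have := dist_triangle_right (T^[j] y) (T^[j] y') (if j < τ y then p else q)
    linarith

lemma Tame.separated {X : Type*} [PseudoMetricSpace X] [CompactSpace X] {T : X → X} {p q : X}
    (h : Tame T p q) {ε : ℝ} (hε : 0 < ε) :
    ∃ C K : ℕ, ∀ (n : ℕ) (S : Finset X),
      (∀ x ∈ S, ∀ y ∈ S, x ≠ y → ∃ j < n, ε < dist (T^[j] x) (T^[j] y)) →
        S.card ≤ C * (n + 1) ^ K := by
  obtain ⟨C, K, hC⟩ := h.code hε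
  refine ⟨C, K, fun n S hS => ?_⟩
  obtain ⟨code, hcode⟩ := hC n
  have : S.card ≤ (Finset.univ : Finset (Fin (C * (n + 1) ^ K))).card := by
    refine Finset.card_le_card_of_injOn code (fun _ _ => by simp) fun x hx y hy hxy => ?_
    by_contra hne
    obtain ⟨j, hj, hd⟩ := hS x hx y hy hne
    have := hcode x y hxy j hj
    linarith
  simpa using this

lemma expGrowthSup_poly (C K : ℕ) :
    ExpGrowth.expGrowthSup (fun n : ℕ => ((C * (n + 1) ^ K : ℕ) : ENNReal)) ≤ 0 := by
  rw [ExpGrowth.expGrowthSup_le_iff]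
  intro b hb
  obtain ⟨r, hr0, hrb⟩ := EReal.lt_iff_exists_real_btwn.1 hb
  have hr : (0 : ℝ) < r := by exact_mod_cast hr0
  have h1 : Tendsto (fun n : ℕ => (C : ℝ) * (((n + 1 : ℕ) : ℝ) ^ K / Real.exp r ^ (n + 1) *
      Real.exp r)) atTop (𝓝 (C * (0 * Real.exp r))) := by
    refine Tendsto.const_mul _ (Tendsto.mul_const _ ?_)
    exact (tendsto_pow_const_div_const_pow_of_one_lt K (Real.one_lt_exp_iff.2 hr)).comp
      (tendsto_add_atTop_nat 1)
  simp only [zero_mul, mul_zero] at h1
  filter_upwards [h1.eventually (gt_mem_nhds one_pos)] with n hn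
  have he : 0 < Real.exp r := Real.exp_pos r
  have h2 : ((C * (n + 1) ^ K : ℕ) : ℝ) ≤ Real.exp (r * n) := by
    rw [mul_comm r, Real.exp_nat_mul]
    have : (C : ℝ) * (((n + 1 : ℕ) : ℝ) ^ K / Real.exp r ^ (n + 1) * Real.exp r) =
        ((C * (n + 1) ^ K : ℕ) : ℝ) / Real.exp r ^ n := by
      push_cast
      field_simp
      ring
    rw [this, div_lt_one (by positivity)] at hn
    exact hn.le
  calc ((C * (n + 1) ^ K : ℕ) : ENNReal) = ENNReal.ofReal ((C * (n + 1) ^ K : ℕ) : ℝ) := by
        rw [ENNReal.ofReal_natCast]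
    _ ≤ ENNReal.ofReal (Real.exp (r * n)) := ENNReal.ofReal_le_ofReal h2
    _ = EReal.exp ((r : EReal) * n) := by
        rw [← EReal.exp_coe]
        congr 1
    _ ≤ EReal.exp (b * n) := by
        gcongr

lemma Tame.entropy {X : Type*} [PseudoMetricSpace X] [CompactSpace X] {T : X → X} {p q : X}
    (h : Tame T p q) : Dynamics.coverEntropy T univ = 0 := by
  classical
  refine le_antisymm ?_ (Dynamics.coverEntropy_nonneg T ⟨p, mem_univ p⟩)
  refine iSup₂_le fun U hU => ?_
  obtain ⟨ε, hε, hεU⟩ := Metric.mem_uniformity_dist.1 hU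
  obtain ⟨C, K, hC⟩ := h.code hε
  refine le_trans (ExpGrowth.expGrowthSup_monotone fun n => ?_) (expGrowthSup_poly C K)
  obtain ⟨code, hcode⟩ := hC n
  have : Nonempty X := ⟨p⟩
  let s : Finset X := Finset.univ.image (Function.invFun code)
  have hs : Dynamics.IsDynCoverOf T univ U n s := by
    intro y _
    refine ⟨Function.invFun code (code y), by simp [s], ?_⟩
    rw [Dynamics.mem_dynEntourage]
    intro k hk
    exact hεU (hcode _ _ (Function.invFun_eq ⟨y, rfl⟩).symm k hk)
  have h1 := hs.coverMincard_le_card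
  have h2 : s.card ≤ C * (n + 1) ^ K := by
    simpa using Finset.card_image_le (s := Finset.univ) (f := Function.invFun code)
  have h3 : Dynamics.coverMincard T univ U n ≤ ((C * (n + 1) ^ K : ℕ) : ℕ∞) :=
    h1.trans (by exact_mod_cast h2)
  simpa using ENat.toENNReal_mono h3

end Vale.Agent.P103
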