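import Vale.Agent.P103.Sphere
import Vale.Agent.P103.Chart

/-! The map on the closed manifold and its smoothness. -/

namespace Vale.Agent.P103

open Filter Topology Set
open scoped Manifold

/-- The closed seven-manifold. -/
abbrev MM : Type := Circle × S2 × S2 × S2

/-- The product model. -/
noncomputable abbrev IM := (𝓡 1).prod ((𝓡 2).prod ((𝓡 2).prod (𝓡 2)))

/-- The ambient vector space. -/
abbrev WW : Type := ℂ × E3 × E3 × E3

/-- The embedding in the ambient space. -/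
def emb (y : MM) : WW := (y.1, y.2.1, y.2.2.1, y.2.2.2)

instance fact2 : Fact (Module.finrank ℝ ℂ = 1 + 1) := ⟨by simp⟩

lemma contMDiff_emb : ContMDiff IM 𝓘(ℝ, WW) 1 emb := by
  have hc : ContMDiff (𝓡 1) 𝓘(ℝ, ℂ) 1 (fun w : Circle => (w : ℂ)) :=
    contMDiff_coe_sphere (E := ℂ) (n := 1)
  have hs : ContMDiff (𝓡 2) 𝓘(ℝ, E3) 1 ((↑) : S2 → E3) := contMDiff_coe_sphere
  exact (hc.comp contMDiff_fst).prodMk_space
    ((hs.comp (contMDiff_fst.comp contMDiff_snd)).prodMk_space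
      ((hs.comp (contMDiff_fst.comp (contMDiff_snd.comp contMDiff_snd))).prodMk_space
        (hs.comp (contMDiff_snd.comp (contMDiff_snd.comp contMDiff_snd)))))

lemma piecewise_smooth {V : Type*} [NormedAddCommGroup V] [NormedSpace ℝ V] {g : MM → V}
    {g₁ g₂ : WW → V}
    (h₁ : ∀ y : MM, eta y.2.2.2 ≠ 1 → ContDiffAt ℝ 1 g₁ (emb y)) (h₂ : ContDiff ℝ 1 g₂)
    (e₁ : ∀ y : MM, eta y.2.2.2 ≠ 1 → g y = g₁ (emb y))
    (e₂ : ∀ y : MM, 15 / 17 < eta y.2.2.2 → g y = g₂ (emb y)) :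
    ContMDiff IM 𝓘(ℝ, V) 1 g := by
  intro y
  have hc : Continuous fun y : MM => eta y.2.2.2 :=
    contDiff_eta.continuous.comp (by fun_prop)
  by_cases h : eta y.2.2.2 = 1
  · have h3 : ContMDiffAt IM 𝓘(ℝ, V) 1 (g₂ ∘ emb) y :=
      (h₂.contMDiff.comp contMDiff_emb) y
    refine h3.congr_of_eventuallyEq ?_
    filter_upwards [(isOpen_lt continuous_const hc).mem_nhds
      (show (15 / 17 : ℝ) < eta y.2.2.2 by rw [h]; norm_num)] with w hw
    exact e₂ w hw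
  · have h3 : ContMDiffAt IM 𝓘(ℝ, V) 1 (g₁ ∘ emb) y :=
      (h₁ y h).contMDiffAt.comp y (contMDiff_emb y)
    refine h3.congr_of_eventuallyEq ?_
    filter_upwards [(isOpen_ne_fun hc continuous_const).mem_nhds h] with w hw
    exact e₁ w hw

lemma big_of_eta {n : S2} (h : 15 / 17 < eta n) (h1 : eta n ≠ 1) : 16 ≤ ‖zc n‖ ^ 2 := by
  have h2 : eta n < 1 := lt_of_le_of_ne (eta_le n) h1
  rw [nsq_zc h1, le_div_iff₀ (by linarith)]
  linarith

open Classical in
/-- Speed on the manifold. -/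
noncomputable def fv (y : MM) : ℝ :=
  if eta y.2.2.2 = 1 then (1 - (y.1 : ℂ).re) / 6
  else spd (y.1 : ℂ).re (rr y.2.1) (rr y.2.2.1) (zc y.2.2.2)

open Classical in
/-- First memory coordinate of the image. -/
noncomputable def fa (y : MM) : ℂ :=
  if eta y.2.2.2 = 1 then 0 else aN (y.1 : ℂ).re (rr y.2.1) (rr y.2.2.1) (zc y.2.2.2)

open Classical in
/-- Second memory coordinate of the image. -/
noncomputable def fb (y : MM) : ℂ :=
  if eta y.2.2.2 = 1 then 0 else bN (y.1 : ℂ).re (rr y.2.1) (rr y.2.2.1) (zc y.2.2.2)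

open Classical in
/-- Main coordinate of the image. -/
noncomputable def fn (y : MM) : S2 :=
  if eta y.2.2.2 = 1 then y.2.2.2 else St (zN (y.1 : ℂ).re (rr y.2.1) (zc y.2.2.2))

/-- The map. -/
noncomputable def ff (y : MM) : MM := (y.1 * Circle.exp (fv y), St (fa y), St (fb y), fn y)

lemma cdW_g (w : WW) : ContDiffAt ℝ 1 (fun w : WW => w.1.re) w :=
  Complex.reCLM.contDiff.contDiffAt.comp w contDiffAt_fst

lemma cdW_a (y : MM) : ContDiffAt ℝ 1 (fun w : WW => rr w.2.1) (emb y) :=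
  ContDiffAt.comp (emb y) (g := rr) (cd_rr y.2.1) (by fun_prop)

lemma cdW_b (y : MM) : ContDiffAt ℝ 1 (fun w : WW => rr w.2.2.1) (emb y) :=
  ContDiffAt.comp (emb y) (g := rr) (cd_rr y.2.2.1) (by fun_prop)

lemma cdW_z (y : MM) (h : eta y.2.2.2 ≠ 1) : ContDiffAt ℝ 1 (fun w : WW => zc w.2.2.2) (emb y) :=
  ContDiffAt.comp (emb y) (g := zc) (cd_zc h) (by fun_prop)

lemma contMDiff_fv : ContMDiff IM 𝓘(ℝ, ℝ) 1 fv := by
  refine piecewise_smooth (g₁ := fun w => spd w.1.re (rr w.2.1) (rr w.2.2.1) (zc w.2.2.2))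
    (g₂ := fun w => (1 - w.1.re) / 6)
    (fun y h => cd_spd (cdW_g _) (cdW_a y) (cdW_b y) (cdW_z y h))
    (contDiff_iff_contDiffAt.2 fun w => (contDiffAt_const.sub (cdW_g w)).div_const _)
    (fun y h => if_neg h) (fun y h => ?_)
  by_cases h1 : eta y.2.2.2 = 1
  · exact if_pos h1
  · rw [fv, if_neg h1, spd_esc _ _ _ (big_of_eta h h1)]
    rfl

lemma contMDiff_fa : ContMDiff IM 𝓘(ℝ, ℂ) 1 fa := by
  refine piecewise_smooth (g₁ := fun w => aN w.1.re (rr w.2.1) (rr w.2.2.1) (zc w.2.2.2))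
    (g₂ := fun _ => 0)
    (fun y h => cd_aN (cdW_g _) (cdW_a y) (cdW_b y) (cdW_z y h)) contDiff_const
    (fun y h => if_neg h) (fun y h => ?_)
  by_cases h1 : eta y.2.2.2 = 1
  · exact if_pos h1
  · rw [fa, if_neg h1, aN_esc _ _ _ (big_of_eta h h1)]

lemma contMDiff_fb : ContMDiff IM 𝓘(ℝ, ℂ) 1 fb := by
  refine piecewise_smooth (g₁ := fun w => bN w.1.re (rr w.2.1) (rr w.2.2.1) (zc w.2.2.2))
    (g₂ := fun _ => 0)
    (fun y h => cd_bN (cdW_g _) (cdW_a y) (cdW_b y) (cdW_z y h)) contDiff_const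
    (fun y h => if_neg h) (fun y h => ?_)
  by_cases h1 : eta y.2.2.2 = 1
  · exact if_pos h1
  · rw [fb, if_neg h1, bN_esc _ _ _ (big_of_eta h h1)]

lemma contMDiff_fn : ContMDiff IM (𝓡 2) 1 fn := by
  have h : ContMDiff IM 𝓘(ℝ, E3) 1 fun y => (fn y : E3) := by
    refine piecewise_smooth (g₁ := fun w => Sv (zN w.1.re (rr w.2.1) (zc w.2.2.2)))
      (g₂ := fun w => Gv w.2.2.2)
      (fun y h => contDiff_Sv.contDiffAt.comp _ (cd_zN (cdW_g _) (cdW_a y) (cdW_z y h)))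
      (contDiff_Gv.comp (by fun_prop)) (fun y h => ?_) (fun y h => ?_)
    · rw [fn, if_neg h]
      rfl
    · by_cases h1 : eta y.2.2.2 = 1
      · rw [fn, if_pos h1]
        exact (Gv_pole h1).symm
      · rw [fn, if_neg h1, zN_esc _ _ (by linarith [big_of_eta h h1]), St_sq h1]
        rfl
  exact h.codRestrict_sphere fun y => (fn y).2

theorem contMDiff_ff : ContMDiff IM IM 1 ff :=
  (contMDiff_fst.mul (contMDiff_circleExp.comp contMDiff_fv)).prodMk
    ((contMDiff_St.comp contMDiff_fa).prodMk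
      ((contMDiff_St.comp contMDiff_fb).prodMk contMDiff_fn))

/-- The chart parametrization. -/
noncomputable def Ph (p : Pt) : MM := (Circle.exp p.x, St p.a, St p.b, St p.z)

lemma re_exp (x : ℝ) : ((Circle.exp x : Circle) : ℂ).re = Real.cos x := by
  rw [Circle.coe_exp, Complex.exp_ofReal_mul_I_re]

lemma ff_chart (x : ℝ) (m₀ m₁ n : S2) (h : eta n ≠ 1) :
    ff (Circle.exp x, m₀, m₁, n) = Ph (FF ⟨x, rr m₀, rr m₁, zc n⟩) := by
  simp only [ff, fv, fa, fb, fn, if_neg h, re_exp, Ph, FF, Pt.v, Circle.exp_add]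

lemma ff_Ph (p : Pt) (ha : ‖p.a‖ ≤ 22) (hb : ‖p.b‖ ≤ 22) : ff (Ph p) = Ph (FF p) := by
  rw [Ph, ff_chart _ _ _ _ (eta_St_ne _), rr_St ha, rr_St hb, zc_St]

lemma iter_chart (x : ℝ) (m₀ m₁ n : S2) (h : eta n ≠ 1) (j : ℕ) :
    ff^[j + 1] (Circle.exp x, m₀, m₁, n) = Ph (FF^[j + 1] ⟨x, rr m₀, rr m₁, zc n⟩) := by
  induction j with
  | zero => exact ff_chart x m₀ m₁ n h
  | succ j ih =>
    rw [Function.iterate_succ_apply', ih, Function.iterate_succ_apply' FF (j + 1), ff_Ph]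
    · rw [Function.iterate_succ_apply', FF_a]; exact norm_aN_le _ _ _ _
    · rw [Function.iterate_succ_apply', FF_b]; exact norm_bN_le _ _ _ _

lemma ff_pole (x : ℝ) (m₀ m₁ : S2) :
    ff (Circle.exp x, m₀, m₁, NP) = (Circle.exp (x + (1 - Real.cos x) / 6), St 0, St 0, NP) := by
  have h : eta (NP : E3) = 1 := by simp [NP]
  simp only [ff, fv, fa, fb, fn, if_pos h, re_exp, Circle.exp_add]

end Vale.Agent.P103
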