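import Vale.Agent.P103.Cyl
import Vale.Agent.P103.Cocycle
import Vale.Agent.P103.Map

/-! The map doubles a nonzero class in the second homology. -/

namespace Vale.Agent.P103

open CategoryTheory Real ComplexConjugate

lemma Q_mem (a b : ℝ) : mk3 (sin b • Complex.exp (a * Complex.I)) (cos b) ∈
    Metric.sphere (0 : E3) 1 := by
  apply mk3_mem
  rw [norm_smul, Complex.norm_exp_ofReal_mul_I, mul_one, Real.norm_eq_abs, sq_abs]
  exact Real.sin_sq_add_cos_sq b

/-- Polar coordinates on the sphere. -/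
noncomputable def QQ (a b : ℝ) : S2 := ⟨_, Q_mem a b⟩

lemma xi_QQ (a b : ℝ) : xi (QQ a b) = sin b • Complex.exp (a * Complex.I) := by simp [QQ]

lemma eta_QQ (a b : ℝ) : eta (QQ a b) = cos b := by simp [QQ]

lemma continuous_QQ : Continuous fun p : ℝ × ℝ => QQ p.1 p.2 := by
  refine Continuous.subtype_mk ?_ _
  have h : Continuous fun p : ℝ × ℝ =>
      ((sin p.2 • Complex.exp (p.1 * Complex.I), cos p.2) : ℂ × ℝ) := by fun_prop
  exact continuous_mk3.comp h

lemma exp_per (a : ℝ) :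
    Complex.exp (((a + 2 * π : ℝ) : ℂ) * Complex.I) = Complex.exp (a * Complex.I) := by
  push_cast
  rw [add_mul, Complex.exp_add, Complex.exp_two_pi_mul_I, mul_one]

lemma QQ_per (a b : ℝ) : QQ (a + 2 * π) b = QQ a b :=
  Subtype.ext (ext3 (by rw [xi_QQ, xi_QQ, exp_per]) (by rw [eta_QQ, eta_QQ]))

lemma QQ_north (a : ℝ) : QQ a 0 = QQ 0 0 :=
  Subtype.ext (ext3 (by simp [xi_QQ]) (by rw [eta_QQ, eta_QQ]))

lemma QQ_south (a : ℝ) : QQ a π = QQ 0 π :=
  Subtype.ext (ext3 (by simp [xi_QQ]) (by rw [eta_QQ, eta_QQ]))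

/-- The polar angle of the square. -/
noncomputable def psi (b : ℝ) : ℝ := arccos (2 * cos b / (1 + cos b ^ 2))

lemma continuous_psi : Continuous psi :=
  continuous_arccos.comp (Continuous.div (by fun_prop) (by fun_prop) fun b => by positivity)

lemma psi_zero : psi 0 = 0 := by norm_num [psi]

lemma psi_pi : psi π = π := by norm_num [psi]

lemma Gv_QQ (a b : ℝ) : Gv (QQ a b) = QQ (2 * a) (psi b) := by
  have hp : 0 < 1 + cos b ^ 2 := by positivity
  apply ext3
  · rw [Gv, xi_mk3, xi_QQ, xi_QQ, eta_QQ, smul_pow, smul_smul, ← Complex.exp_nat_mul, psi,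
      Real.sin_arccos]
    have : √(1 - (2 * cos b / (1 + cos b ^ 2)) ^ 2) = (1 + cos b ^ 2)⁻¹ * sin b ^ 2 := by
      rw [← Real.sqrt_sq (x := (1 + cos b ^ 2)⁻¹ * sin b ^ 2) (by positivity), Real.sin_sq]
      congr 1
      field_simp
      ring
    rw [this]
    congr 2
    push_cast
    ring
  · rw [Gv, eta_mk3, eta_QQ, eta_QQ, psi, Real.cos_arccos]
    · rw [le_div_iff₀ hp]; nlinarith [sq_nonneg (cos b + 1)]
    · rw [div_le_iff₀ hp]; nlinarith [sq_nonneg (cos b - 1)]

/-- The embedded sphere. -/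
noncomputable def inc (n : S2) : MM := (Circle.exp (π / 2), St 0, St 0, n)

lemma continuous_inc : Continuous inc := by
  unfold inc
  fun_prop

lemma ff_inc (a b : ℝ) : ff (inc (QQ a b)) =
    (Circle.exp (π / 2) * Circle.exp (fv (inc (QQ a b))), St 0, St 0, QQ (2 * a) (psi b)) := by
  have h0 : rr (St 0) = 0 := rr_St (by simp)
  have h1 : fa (inc (QQ a b)) = 0 := by
    simp only [fa, inc, re_exp, Real.cos_pi_div_two, h0, aN_base, ite_self]
  have h2 : fb (inc (QQ a b)) = 0 := by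
    simp only [fb, inc, re_exp, Real.cos_pi_div_two, h0, bN_base, ite_self]
  have h3 : fn (inc (QQ a b)) = QQ (2 * a) (psi b) := by
    apply Subtype.ext
    rw [← Gv_QQ]
    by_cases h : eta (QQ a b) = 1
    · rw [fn, if_pos (show eta ((inc (QQ a b)).2.2.2) = 1 from h)]
      exact (Gv_pole h).symm
    · simp only [fn, inc, if_neg h, re_exp, Real.cos_pi_div_two, h0, zN_base]
      exact St_sq h
  rw [ff, h1, h2, h3]
  rfl

/-- The map as a continuous map. -/
noncomputable def ffc : C(MM, MM) := ⟨ff, contMDiff_ff.continuous⟩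

/-- Polar coordinates as a map of the parameter space. -/
noncomputable def Qm : C(PP, S2) :=
  ⟨fun p => QQ p.1 p.2.1, by
    have h : Continuous fun p : PP => ((p.1, p.2.1) : ℝ × ℝ) := by fun_prop
    have h2 := continuous_QQ.comp h
    exact h2⟩

/-- The basic spherical cycle. -/
noncomputable def P0 : C(PP, MM) := ⟨fun p => inc (Qm p), continuous_inc.comp Qm.continuous⟩

/-- The homotopy. -/
noncomputable def HH : C(PP, MM) :=
  ⟨fun p => (Circle.exp (π / 2) * Circle.exp (p.2.2 * fv (P0 p)), St 0, St 0,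
      QQ (2 * p.1) ((1 - p.2.2) * p.2.1 + p.2.2 * psi p.2.1)), by
    have h1 : Continuous fun p : PP => fv (P0 p) := contMDiff_fv.continuous.comp P0.continuous
    have h2 : Continuous fun p : PP => psi p.2.1 := continuous_psi.comp continuous_snd.fst
    have h3 : Continuous fun p : PP =>
        ((2 * p.1, (1 - p.2.2) * p.2.1 + p.2.2 * psi p.2.1) : ℝ × ℝ) := by fun_prop
    have h4 := continuous_QQ.comp h3
    have h5 : Continuous fun p : PP => Circle.exp (p.2.2 * fv (P0 p)) :=
      Circle.exp.continuous.comp (continuous_snd.snd.mul h1)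
    exact (continuous_const.mul h5).prodMk
      (continuous_const.prodMk (continuous_const.prodMk h4))⟩

lemma Qm_apply (a b t : ℝ) : Qm (a, b, t) = QQ a b := rfl
lemma P0_apply (a b t : ℝ) : P0 (a, b, t) = inc (QQ a b) := rfl
lemma HH_apply (a b t : ℝ) : HH (a, b, t) =
    (Circle.exp (π / 2) * Circle.exp (t * fv (inc (QQ a b))), St 0, St 0,
      QQ (2 * a) ((1 - t) * b + t * psi b)) := rfl

lemma cyl_Qm : Cyl Qm :=
  ⟨fun a b _ => QQ_per a b, fun a _ => QQ_north a, fun a _ => QQ_south a⟩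

lemma cyl_P0 : Cyl P0 :=
  ⟨fun a b t => by rw [P0_apply, P0_apply, QQ_per], fun a t => by rw [P0_apply, P0_apply, QQ_north],
    fun a t => by rw [P0_apply, P0_apply, QQ_south]⟩

lemma cyl_HH : Cyl HH := by
  refine ⟨fun a b t => ?_, fun a t => ?_, fun a t => ?_⟩
  · rw [HH_apply, HH_apply, QQ_per, show 2 * (a + 2 * π) = 2 * a + 2 * π + 2 * π by ring, QQ_per,
      QQ_per]
  · rw [HH_apply, HH_apply, QQ_north a, psi_zero, show (1 - t) * 0 + t * 0 = 0 by ring,
      QQ_north (2 * a), QQ_north (2 * 0)]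
  · rw [HH_apply, HH_apply, QQ_south a, psi_pi, show (1 - t) * π + t * π = π by ring,
      QQ_south (2 * a), QQ_south (2 * 0)]

lemma chain_double : zch P0 (2 * π) 0 ≫ (KM ffc).f 2 ≫ (KK MM).pOpcycles 2 =
    (2 : ℝ) • (zch P0 (2 * π) 0 ≫ (KK MM).pOpcycles 2) := by
  have h1 : zch (ffc.comp P0) (2 * π) 0 = zch HH (1 * (2 * π)) 1 := by
    refine zch_congr fun x y => ?_
    rw [HH_apply, one_mul, one_mul, sub_self, zero_mul, zero_add, one_mul]
    exact ff_inc x y
  have h2 : zch HH (2 * π) 0 = zch P0 (2 * (2 * π)) 0 := by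
    refine zch_congr fun x y => ?_
    rw [HH_apply, P0_apply, zero_mul, Circle.exp_zero, mul_one, sub_zero, one_mul, zero_mul,
      add_zero]
    rfl
  rw [← Category.assoc, zch_map, h1, one_mul, zch_homotopy cyl_HH, h2, two_mul (2 * π),
    zch_double cyl_P0]

/-- Projection to the last sphere. -/
def prj : C(MM, S2) := ⟨fun y => y.2.2.2, by fun_prop⟩

/-- The cocycle on the manifold. -/
noncomputable def cM : (KK MM).X 2 ⟶ RR := coch fun σ => cc (prj.comp σ)

lemma d_cM : (KK MM).d 3 2 ≫ cM = 0 :=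
  d_coch _ fun τ => cc_cocycle (prj.comp τ)

/-- A section of the tautological line over the parameter space. -/
noncomputable def VV : C(PP, ℂ × ℂ) :=
  ⟨fun p => (cos (p.2.1 / 2) • Complex.exp (p.1 * Complex.I), (sin (p.2.1 / 2) : ℝ)), by fun_prop⟩

lemma VV_apply (a b t : ℝ) :
    VV (a, b, t) = (cos (b / 2) • Complex.exp (a * Complex.I), ((sin (b / 2) : ℝ) : ℂ)) := rfl

lemma VV_sec (p : PP) : VV p ≠ 0 ∧ InL (Qm p) (VV p) := by
  obtain ⟨a, b, t⟩ := p
  have hs : sin b = 2 * sin (b / 2) * cos (b / 2) := by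
    rw [← Real.sin_two_mul]; congr 1; ring
  have hc : cos b = 2 * cos (b / 2) ^ 2 - 1 := by
    rw [← Real.cos_two_mul]; congr 1; ring
  have h1 := Real.sin_sq_add_cos_sq (b / 2)
  rw [VV_apply, Qm_apply]
  refine ⟨fun h => ?_, ?_, ?_⟩
  · have a1 : cos (b / 2) • Complex.exp (a * Complex.I) = 0 := congrArg Prod.fst h
    have a2 : ((sin (b / 2) : ℝ) : ℂ) = 0 := congrArg Prod.snd h
    rw [smul_eq_zero, or_iff_left (Complex.exp_ne_zero _)] at a1
    rw [Complex.ofReal_eq_zero] at a2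
    rw [a1, a2] at h1
    norm_num at h1
  · rw [xi_QQ, eta_QQ, hs, hc]
    simp only [Complex.real_smul]
    generalize sin (b / 2) = s at h1
    generalize cos (b / 2) = c at h1
    have h2 : (s : ℂ) ^ 2 + (c : ℂ) ^ 2 = 1 := by exact_mod_cast h1
    push_cast
    linear_combination 2 * c * Complex.exp (a * Complex.I) * h2
  · rw [xi_QQ, eta_QQ, hs, hc]
    simp only [Complex.real_smul, map_mul, Complex.conj_ofReal]
    have h3 : conj (Complex.exp (a * Complex.I)) * Complex.exp (a * Complex.I) = 1 := by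
      rw [mul_comm, Complex.mul_conj, Complex.normSq_eq_norm_sq, Complex.norm_exp_ofReal_mul_I]
      norm_num
    generalize sin (b / 2) = s
    generalize cos (b / 2) = c
    push_cast
    linear_combination 2 * s * c ^ 2 * h3

lemma sec_aff {n : ℕ} (v : Fin (n + 1) → PP) : Sec (Qm.comp (aff v)) (VV.comp (aff v)) :=
  fun s => VV_sec (aff v s)

/-- The turning of the global section along an affine edge. -/
noncomputable def jj (a b : PP) : ℝ := JJ (Qm.comp (aff ![a, b])) (VV.comp (aff ![a, b]))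

lemma tr_cM (a b c : PP) : tr P0 a b c ≫ cM = (jj b c - jj a c + jj a b) • 𝟙 RR := by
  rw [tr, cM, ch_coch]
  have : prj.comp (P0.comp (aff ![a, b, c])) = Qm.comp (aff ![a, b, c]) := rfl
  rw [this, cc_eq (sec_aff _), cS]
  simp only [ContinuousMap.comp_assoc, aff2_face0, aff2_face1, aff2_face2, jj]

lemma jj_per : jj (2 * π, 0, 0) (2 * π, π, 0) = jj (0, 0, 0) (0, π, 0) := by
  rw [jj, jj, cyl_Qm.e_per]
  congr 1
  ext1 s
  simp only [ContinuousMap.comp_apply, aff1_pp, c1, VV_apply]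
  rw [← exp_per 0, zero_add]

lemma jj_south : jj (0, π, 0) (2 * π, π, 0) = jj (0, π, 0) (0, π, 0) := by
  rw [jj, jj, cyl_Qm.e_south]
  congr 1
  ext1 s
  simp only [ContinuousMap.comp_apply, aff1_pp, c1, VV_apply, Real.cos_pi_div_two, zero_smul]

lemma jj_north : jj (0, 0, 0) (2 * π, 0, 0) = jj (0, 0, 0) (0, 0, 0) + 2 * π := by
  let ψ : C(Sx 1, ℂ) := ⟨fun s => ((s 0 * 0 + s 1 * (2 * π) : ℝ) : ℂ) * Complex.I, by
    have h : ∀ i, Continuous fun s : Sx 1 => s i := fun i =>
      (continuous_apply i).comp continuous_subtype_val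
    exact (Complex.continuous_ofReal.comp (((h 0).mul continuous_const).add
      ((h 1).mul continuous_const))).mul continuous_const⟩
  rw [jj, jj, cyl_Qm.e_north, JJ_mul (sec_aff _) (ψ := ψ)]
  · congr 1
    simp [var, ψ]
  · intro s
    simp only [ContinuousMap.comp_apply, aff1_pp, c1, VV_apply, ψ, ContinuousMap.coe_mk]
    simp

lemma zch_cM : zch P0 (2 * π) 0 ≫ cM ≠ 0 := by
  have h : zch P0 (2 * π) 0 ≫ cM = (2 * π) • 𝟙 RR := by
    simp only [zch, Preadditive.add_comp, Preadditive.sub_comp, tr_cM]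
    rw [jj_per, jj_south, jj_north]
    module
  rw [h]
  intro h0
  have := congrArg (fun g : RR ⟶ RR => g.hom (1 : ℝ)) h0
  simp at this

theorem eigen_ff : (homologyMap 2 ffc).HasEigenvalue 2 :=
  eigen_of_chain ffc _ (zch_d cyl_P0 0) chain_double cM d_cM zch_cM

end Vale.Agent.P103
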