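import Vale.Agent.P103.Dyn

/-! Outside boundedly many times an orbit of the chart map sits near one of two points. -/

namespace Vale.Agent.P103

open Filter Topology Set Real

lemma slow_cos {p : Pt} {σ : ℝ} (h : p.v < σ / 6) : 1 - cos p.x < σ := by
  have := pushw_nonneg p.a p.b p.z
  unfold Pt.v spd at h
  linarith

lemma slow_step {p : Pt} {σ : ℝ} (hσ : σ ≤ 1 / 2) (h : p.v < σ / 6) (he : ¬ Esc p) :
    nu p.a p.b < 6 ∧ nu (FF p).a (FF p).b = 64 * nu p.a p.b ∧
      (nu p.a p.b ≤ 1 → (FF p).z = 0) := by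
  have hc := slow_cos h
  have hi : inf1 p.z = 0 := inf1_zero (le_of_lt (not_le.1 he))
  have hp : push p.a p.b p.z < 1 := by
    have := Real.cos_le_one p.x
    unfold Pt.v spd at h
    rw [hi] at h
    linarith
  have h3 := lt_of_st_lt_one (by norm_num) hp
  have hn0 : 0 ≤ nu p.a p.b := by unfold nu; positivity
  have hz : ‖p.z‖ ^ 2 ≤ 3 := by linarith
  have hn : nu p.a p.b < 6 := by linarith [sq_nonneg ‖p.z‖]
  have hk : kap (cos p.x) = 0 := kap_zero (by linarith)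
  have hm : mul8 p.a p.b = 8 := mul8_eq hn.le
  have ha : (FF p).a = (8 : ℝ) • p.b := by rw [FF_a, aN, hi, hk, hm]; module
  have hb : (FF p).b = (8 : ℝ) • p.a := by rw [FF_b, bN, hi, hk, hm]; module
  refine ⟨hn, ?_, fun h1 => ?_⟩
  · rw [ha, hb, nu, nu, nsq_smul, nsq_smul]; ring
  · have hrd : rd p.a = 0 := st_zero (by norm_num) (by
      unfold nu at h1; linarith [sq_nonneg ‖p.b‖])
    rw [FF_z, zN, sq1_zero hz, era_one (by linarith), hrd]
    simp

lemma x_iter (p : Pt) (n : ℕ) :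
    (FF^[n] p).x = p.x + ∑ j ∈ Finset.range n, (FF^[j] p).v := by
  induction n with
  | zero => simp
  | succ n ih => rw [Function.iterate_succ_apply', FF_x, ih, Finset.sum_range_succ, add_assoc]

open Classical in
lemma card_fast {p : Pt} (h1 : -π ≤ p.x) (h2 : p.x ≤ π) {σ : ℝ} (hσ : 0 < σ) (n : ℕ) :
    ((Finset.range n).filter fun j => σ / 6 ≤ (FF^[j] p).v).card ≤ ⌈30 * π / σ⌉₊ := by
  set S := (Finset.range n).filter fun j => σ / 6 ≤ (FF^[j] p).v with hS
  have hb := bounded n p (by linarith)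
  rw [x_iter] at hb
  have h3 : ∑ j ∈ S, (FF^[j] p).v ≤ ∑ j ∈ Finset.range n, (FF^[j] p).v :=
    Finset.sum_le_sum_of_subset_of_nonneg (Finset.filter_subset _ _) fun j _ _ => Pt.v_nonneg _
  have h4 : S.card • (σ / 6) ≤ ∑ j ∈ S, (FF^[j] p).v :=
    Finset.card_nsmul_le_sum _ _ _ fun j hj => (Finset.mem_filter.1 hj).2
  rw [nsmul_eq_mul] at h4
  have h5 : (S.card : ℝ) ≤ 30 * π / σ := by
    rw [le_div_iff₀ hσ]
    linarith
  exact_mod_cast h5.trans (Nat.le_ceil _)

lemma esc_iter {p : Pt} (h : Esc p) (k : ℕ) : 4 ^ (k + 1) ≤ ‖(FF^[k] p).z‖ ^ 2 := by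
  induction k with
  | zero => simpa [Esc] using h
  | succ k ih =>
    have h4 : (4 : ℝ) ≤ 4 ^ (k + 1) := le_self_pow₀ (by norm_num) (by omega)
    have he : Esc (FF^[k] p) := h4.trans ih
    rw [Function.iterate_succ_apply', he.next, pow_succ]
    nlinarith

lemma nu_run {p : Pt} {σ : ℝ} (hσ : σ ≤ 1 / 2) (k : ℕ)
    (h : ∀ i ≤ k, (FF^[i] p).v < σ / 6 ∧ ¬ Esc (FF^[i] p)) :
    64 ^ k * nu p.a p.b < 6 := by
  induction k generalizing p with
  | zero => simpa using (slow_step hσ (h 0 le_rfl).1 (h 0 le_rfl).2).1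
  | succ k ih =>
    have h0 := slow_step hσ (h 0 (by omega)).1 (h 0 (by omega)).2
    have h1 := ih (p := FF p) fun i hi => by
      rw [← Function.iterate_succ_apply]
      exact h (i + 1) (by omega)
    simp only [Function.iterate_zero, id] at h0
    rw [h0.2.1] at h1
    rw [pow_succ]
    linarith

theorem chart_tame {σ : ℝ} (hσ0 : 0 < σ) (hσ : σ ≤ 1 / 2) (N : ℕ) (hN : 1 ≤ N) :
    ∃ K : ℕ, ∀ p : Pt, -π ≤ p.x → p.x ≤ π → ∀ n : ℕ, ∃ τ : ℕ, ∃ E : Finset ℕ, E.card ≤ K ∧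
      ∀ j < n, j ∉ E → 1 ≤ j ∧ 1 - cos (FF^[j] p).x < σ ∧
        (j < τ → 64 ^ N * nu (FF^[j] p).a (FF^[j] p).b < 6 ∧ (FF^[j] p).z = 0) ∧
        (τ ≤ j → (FF^[j] p).a = 0 ∧ (FF^[j] p).b = 0 ∧ 4 ^ N ≤ ‖(FF^[j] p).z‖ ^ 2) := by
  classical
  refine ⟨(⌈30 * π / σ⌉₊ + 2) * (2 * N + 1), fun p h1 h2 n => ?_⟩
  obtain ⟨τ, hτ1, hτ2⟩ : ∃ τ : ℕ, (∀ i < τ, ¬ Esc (FF^[i] p)) ∧ (τ < n → Esc (FF^[τ] p)) := by
    by_cases hex : ∃ i, Esc (FF^[i] p)
    · exact ⟨Nat.find hex, fun i hi => Nat.find_min hex hi, fun _ => Nat.find_spec hex⟩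
    · exact ⟨n, fun i _ hi => hex ⟨i, hi⟩, fun h => absurd h (lt_irrefl _)⟩
  set Fa := (Finset.range (n + N)).filter fun j => σ / 6 ≤ (FF^[j] p).v with hFa
  set Mk : Finset ℕ := insert 0 (insert τ Fa) with hMk
  refine ⟨τ, Mk.biUnion fun k => Finset.Icc (k - N) (k + N), ?_, fun j hj hE => ?_⟩
  · refine (Finset.card_biUnion_le_card_mul _ _ (2 * N + 1) fun k _ => ?_).trans ?_
    · rw [Nat.card_Icc]; omega
    · refine Nat.mul_le_mul_right _ ?_
      have := card_fast h1 h2 hσ0 (n + N)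
      have a1 := Finset.card_insert_le 0 (insert τ Fa)
      have a2 := Finset.card_insert_le τ Fa
      rw [← hFa] at this
      rw [hMk]
      omega
  · simp only [Finset.mem_biUnion, Finset.mem_Icc, not_exists, not_and] at hE
    have e0 := hE 0 (by simp [hMk])
    have eτ := hE τ (by simp [hMk])
    have hslow : ∀ i, j ≤ i + N → i ≤ j + N → (FF^[i] p).v < σ / 6 := by
      intro i hi1 hi2
      by_contra hn
      have hm : i ∈ Mk := by
        simp only [hMk, hFa, Finset.mem_insert, Finset.mem_filter, Finset.mem_range]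
        exact Or.inr (Or.inr ⟨by omega, not_lt.1 hn⟩)
      have := hE i hm
      omega
    obtain ⟨i, rfl⟩ : ∃ i, j = i + 1 := ⟨j - 1, by omega⟩
    refine ⟨by omega, slow_cos (hslow _ (by omega) (by omega)), fun hlt => ?_, fun hle => ?_⟩
    · have hrun : ∀ k ≤ N + 1, (FF^[k] (FF^[i] p)).v < σ / 6 ∧ ¬ Esc (FF^[k] (FF^[i] p)) := by
        intro k hk
        rw [← Function.iterate_add_apply]
        exact ⟨hslow _ (by omega) (by omega), hτ1 _ (by omega)⟩
      have r1 := nu_run hσ (N + 1) hrun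
      have s0 := slow_step hσ (hrun 0 (by omega)).1 (hrun 0 (by omega)).2
      simp only [Function.iterate_zero, id] at s0
      rw [Function.iterate_succ_apply', s0.2.1]
      rw [pow_succ] at r1
      refine ⟨by linarith, s0.2.2 ?_⟩
      have : (1 : ℝ) ≤ 64 ^ N := one_le_pow₀ (by norm_num)
      have hn0 : 0 ≤ nu (FF^[i] p).a (FF^[i] p).b := by unfold nu; positivity
      nlinarith
    · have hesc := hτ2 (by omega)
      obtain ⟨k, rfl⟩ : ∃ k, i = k + τ := ⟨i - τ, by omega⟩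
      have b1 := esc_iter hesc k
      have b2 := esc_iter hesc (k + 1)
      rw [← Function.iterate_add_apply] at b1 b2
      have h16 : (16 : ℝ) ≤ 4 ^ (k + 1) := by
        calc (16 : ℝ) = 4 ^ 2 := by norm_num
          _ ≤ 4 ^ (k + 1) := pow_le_pow_right₀ (by norm_num) (by omega)
      refine ⟨?_, ?_, ?_⟩
      · rw [Function.iterate_succ_apply', FF_a, aN_esc _ _ _ (h16.trans b1)]
      · rw [Function.iterate_succ_apply', FF_b, bN_esc _ _ _ (h16.trans b1)]
      · rw [show k + τ + 1 = k + 1 + τ by omega]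
        exact (pow_le_pow_right₀ (by norm_num) (by omega)).trans b2

end Vale.Agent.P103
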