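import Vale.Agent.P103.Map
import Vale.Agent.P103.Slow
import Vale.Agent.P103.Ent

/-! The map has zero entropy. -/

namespace Vale.Agent.P103

open Filter Topology Set

lemma dist_exp_one (x : ℝ) : dist (Circle.exp x) 1 ^ 2 = 2 * (1 - Real.cos x) := by
  have h : dist (Circle.exp x) 1 = ‖Complex.exp (x * Complex.I) - 1‖ := by
    rw [← Circle.coe_exp, ← dist_eq_norm]
    rfl
  rw [h, Complex.sq_norm, Complex.normSq_apply]
  simp only [Complex.sub_re, Complex.exp_ofReal_mul_I_re, Complex.one_re, Complex.sub_im,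
    Complex.exp_ofReal_mul_I_im, Complex.one_im, sub_zero]
  nlinarith [Real.sin_sq_add_cos_sq x]

lemma iter_pole (x : ℝ) (m₀ m₁ : S2) (j : ℕ) :
    ff^[j + 1] (Circle.exp x, m₀, m₁, NP) =
      (Circle.exp (FF^[j + 1] ⟨x, 0, 0, 4⟩).x, St 0, St 0, NP) := by
  have he : Esc (⟨x, 0, 0, 4⟩ : Pt) := by
    unfold Esc
    norm_num
  have h16 : ∀ k, 16 ≤ ‖(FF^[k] ⟨x, 0, 0, 4⟩).z‖ ^ 2 := by
    intro k
    cases k with
    | zero => norm_num
    | succ k =>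
      refine le_trans ?_ (esc_iter he (k + 1))
      calc (16 : ℝ) = 4 ^ 2 := by norm_num
        _ ≤ 4 ^ (k + 1 + 1) := pow_le_pow_right₀ (by norm_num) (by omega)
  have hx : ∀ k, (FF^[k + 1] ⟨x, 0, 0, 4⟩).x =
      (FF^[k] ⟨x, 0, 0, 4⟩).x + (1 - Real.cos (FF^[k] ⟨x, 0, 0, 4⟩).x) / 6 := fun k => by
    rw [Function.iterate_succ_apply', FF_x, Pt.v, spd_esc _ _ _ (h16 k)]
  induction j with
  | zero => rw [hx]; exact ff_pole x m₀ m₁
  | succ j ih => rw [Function.iterate_succ_apply', ih, ff_pole, ← hx]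

theorem tame_ff : Tame ff (1, St 0, St 0, St 0) (1, St 0, St 0, NP) := by
  intro ε hε
  obtain ⟨δ, hδ, hSt⟩ := Metric.continuous_iff.1 continuous_St 0 ε hε
  obtain ⟨N₁, hN₁⟩ := pow_unbounded_of_one_lt (6 / δ ^ 2) (show (1 : ℝ) < 64 by norm_num)
  obtain ⟨N₂, hN₂⟩ := pow_unbounded_of_one_lt (4 / ε ^ 2) (show (1 : ℝ) < 4 by norm_num)
  set N := N₁ + N₂ + 1 with hN
  have h64 : 6 / δ ^ 2 < 64 ^ N := hN₁.trans_le (pow_le_pow_right₀ (by norm_num) (by omega))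
  have h4 : 4 / ε ^ 2 < 4 ^ N := hN₂.trans_le (pow_le_pow_right₀ (by norm_num) (by omega))
  set σ := min (1 / 2) (ε ^ 2 / 2) with hσ
  obtain ⟨K, hK⟩ := chart_tame (σ := σ) (by positivity) (min_le_left _ _) N (by omega)
  have hcirc : ∀ x : ℝ, 1 - Real.cos x < σ → dist (Circle.exp x) 1 < ε := by
    intro x hx
    have h1 := dist_exp_one x
    have h2 : σ ≤ ε ^ 2 / 2 := min_le_right _ _
    exact lt_of_pow_lt_pow_left₀ 2 hε.le (by linarith)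
  have hsmall : ∀ u : ℂ, 64 ^ N * ‖u‖ ^ 2 < 6 → dist (St u) (St 0) < ε := by
    intro u hu
    apply hSt
    rw [dist_zero_right]
    refine lt_of_pow_lt_pow_left₀ 2 hδ.le ?_
    rw [div_lt_iff₀ (by positivity)] at h64
    have : (0 : ℝ) < 64 ^ N := by positivity
    nlinarith
  have hbig : ∀ z : ℂ, 4 ^ N ≤ ‖z‖ ^ 2 → dist (St z) NP < ε := by
    intro z hz
    refine lt_of_pow_lt_pow_left₀ 2 hε.le ?_
    rw [dist_St_NP, div_lt_iff₀ (by positivity)]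
    rw [div_lt_iff₀ (by positivity)] at h4
    nlinarith [sq_pos_of_pos hε]
  refine ⟨K, fun y n => ?_⟩
  obtain ⟨w, m₀, m₁, s⟩ := y
  have hw : w = Circle.exp (Complex.arg w) := (Circle.exp_arg w).symm
  have hx1 : -Real.pi ≤ Complex.arg w := (Complex.neg_pi_lt_arg _).le
  have hx2 : Complex.arg w ≤ Real.pi := Complex.arg_le_pi _
  by_cases h : eta s = 1
  · obtain ⟨τ, E, hE, H⟩ := hK ⟨Complex.arg w, 0, 0, 4⟩ hx1 hx2 n
    refine ⟨0, E, hE, fun j hj hjE => ?_⟩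
    obtain ⟨h1, h2, -⟩ := H j hj hjE
    obtain ⟨i, rfl⟩ : ∃ i, j = i + 1 := ⟨j - 1, by omega⟩
    rw [hw, eq_NP h, iter_pole, if_neg (by omega)]
    simp only [Prod.dist_eq, dist_self, max_lt_iff]
    exact ⟨hcirc _ h2, hε⟩
  · obtain ⟨τ, E, hE, H⟩ := hK ⟨Complex.arg w, rr m₀, rr m₁, zc s⟩ hx1 hx2 n
    refine ⟨τ, E, hE, fun j hj hjE => ?_⟩
    obtain ⟨h1, h2, h3, h4⟩ := H j hj hjE
    obtain ⟨i, rfl⟩ : ∃ i, j = i + 1 := ⟨j - 1, by omega⟩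
    rw [hw, iter_chart _ _ _ _ h, Ph]
    by_cases hτ : i + 1 < τ
    · obtain ⟨h5, h6⟩ := h3 hτ
      rw [if_pos hτ, h6]
      simp only [Prod.dist_eq, dist_self, max_lt_iff]
      have : (0 : ℝ) < 64 ^ N := by positivity
      unfold nu at h5
      refine ⟨hcirc _ h2, hsmall _ ?_, hsmall _ ?_, hε⟩
      · nlinarith [sq_nonneg ‖(FF^[i + 1] ⟨Complex.arg w, rr m₀, rr m₁, zc s⟩).b‖]
      · nlinarith [sq_nonneg ‖(FF^[i + 1] ⟨Complex.arg w, rr m₀, rr m₁, zc s⟩).a‖]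
    · obtain ⟨h5, h6, h7⟩ := h4 (not_lt.1 hτ)
      rw [if_neg hτ, h5, h6]
      simp only [Prod.dist_eq, dist_self, max_lt_iff]
      exact ⟨hcirc _ h2, hε, hε, hbig _ h7⟩

end Vale.Agent.P103
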