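import Vale.Agent.P103.Defs2
import Vale.Agent.P103.Zero
import Vale.Agent.P103.Hom

/-! Passing to a Euclidean model space and to the literal form of the conjecture. -/

namespace Vale.Agent.P103

open Filter Topology Set
open scoped Manifold ContDiff

section transport

variable {E : Type} [NormedAddCommGroup E] [NormedSpace ℝ E] {H : Type} [TopologicalSpace H]
  (I : ModelWithCorners ℝ E H) [I.Boundaryless] (M : Type) [TopologicalSpace M] [ChartedSpace H M]
  {F : Type} [NormedAddCommGroup F] [NormedSpace ℝ F] (L : E ≃L[ℝ] F)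

/-- The atlas transported to a vector space model. -/
@[reducible] noncomputable def transCS : ChartedSpace F M where
  atlas := (fun c => c.transHomeomorph (I.toHomeomorph.trans L.toHomeomorph)) '' atlas H M
  chartAt x := (chartAt H x).transHomeomorph (I.toHomeomorph.trans L.toHomeomorph)
  mem_chart_source x := mem_chart_source H x
  chart_mem_atlas x := ⟨_, chart_mem_atlas H x, rfl⟩

lemma transCS_manifold [IsManifold I ∞ M] : @IsManifold ℝ _ F _ _ F _ 𝓘(ℝ, F) ∞ M _ (transCS I M L) := by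
  let _ := transCS I M L
  refine isManifold_of_contDiffOn 𝓘(ℝ, F) ∞ M ?_
  rintro _ _ ⟨c, hc, rfl⟩ ⟨c', hc', rfl⟩
  have h := (StructureGroupoid.compatible (contDiffGroupoid ∞ I) hc hc').1
  have h' : ContDiffOn ℝ ∞ (I ∘ (c.symm ≫ₕ c') ∘ I.symm)
      (I.symm ⁻¹' (c.symm ≫ₕ c').source ∩ range I) := h
  have h2 := L.contDiff.comp_contDiffOn (h'.comp (s := L.symm ⁻¹'
    (I.symm ⁻¹' (c.symm ≫ₕ c').source ∩ range I)) L.symm.contDiff.contDiffOn fun _ hx => hx)
  refine h2.mono fun x hx => ⟨hx.1, ?_⟩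
  rw [I.range_eq_univ]
  trivial

lemma transCS_contMDiff {f : M → M} (hf : ContMDiff I I 1 f) :
    @ContMDiff ℝ _ F _ _ F _ 𝓘(ℝ, F) M _ (transCS I M L) F _ _ F _ 𝓘(ℝ, F) M _ (transCS I M L)
      1 f := by
  let _ := transCS I M L
  intro x
  obtain ⟨h1, h2⟩ := contMDiffAt_iff.1 (hf x)
  refine contMDiffAt_iff.2 ⟨h1, ?_⟩
  rw [I.range_eq_univ, contDiffWithinAt_univ] at h2
  have h3 : ContDiffAt ℝ 1 (extChartAt I (f x) ∘ f ∘ (extChartAt I x).symm)
      (L.symm (L (extChartAt I x x))) := by rwa [L.symm_apply_apply]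
  exact (L.contDiff.contDiffAt.comp _ (h3.comp _ L.symm.contDiff.contDiffAt)).contDiffWithinAt

end transport

lemma hTop_le_of_poly {M : Type} [MetricSpace M] {f : M → M}
    (h : ∀ ε : ℝ, 0 < ε → ∃ C K : ℕ, ∀ (n : ℕ) (S : Finset M),
      (∀ x ∈ S, ∀ y ∈ S, x ≠ y → ∃ j < n, ε < dist (f^[j] x) (f^[j] y)) →
        S.card ≤ C * (n + 1) ^ K) : hTop f ≤ 0 := by
  refine iSup₂_le fun ε hε => ?_
  obtain ⟨C, K, hC⟩ := h ε hε
  refine le_trans (ExpGrowth.expGrowthSup_monotone (a := fun n => (sepCard f n ε : ENNReal))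
    fun n => ?_) (expGrowthSup_poly C K)
  have : sepCard f n ε ≤ ((C * (n + 1) ^ K : ℕ) : ℕ∞) :=
    iSup₂_le fun S hS => by exact_mod_cast hC n S hS
  simpa using ENat.toENNReal_mono this

lemma hTop_nonneg {M : Type} [MetricSpace M] [Nonempty M] (f : M → M) : 0 ≤ hTop f := by
  refine le_iSup₂_of_le 1 one_pos ?_
  obtain ⟨x⟩ := ‹Nonempty M›
  have h : ∀ n, (1 : ENNReal) ≤ (sepCard f n 1 : ENNReal) := fun n => by
    have : (1 : ℕ∞) ≤ sepCard f n 1 := le_iSup₂_of_le {x} (by simp) (by simp)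
    simpa using ENat.toENNReal_mono this
  have h2 := ExpGrowth.expGrowthSup_monotone (a := fun _ => (1 : ENNReal))
    (b := fun n => (sepCard f n 1 : ENNReal)) h
  rwa [ExpGrowth.expGrowthSup_const one_ne_zero ENNReal.one_ne_top] at h2

lemma eigen_baseChange {V : Type} [AddCommGroup V] [Module ℝ V] {T : Module.End ℝ V}
    (h : T.HasEigenvalue 2) : Module.End.HasEigenvalue (T.baseChange ℂ) 2 := by
  obtain ⟨v, hv⟩ := h.exists_hasEigenvector
  refine Module.End.hasEigenvalue_of_hasEigenvector (x := (1 : ℂ) ⊗ₜ[ℝ] v) ⟨?_, ?_⟩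
  · rw [Module.End.mem_eigenspace_iff, LinearMap.baseChange_tmul, hv.apply_eq_smul, two_smul,
      two_smul, TensorProduct.tmul_add]
  · intro h0
    have := congrArg (TensorProduct.lid ℝ V ∘ LinearMap.rTensor V Complex.reLm) h0
    simp at this
    exact hv.2 this

lemma two_le_specRad : 2 ≤ specRad 7 ffc := by
  refine le_iSup₂_of_le 2 (by norm_num) (le_iSup₂_of_le 2 (eigen_baseChange eigen_ff) ?_)
  rw [← ofReal_norm]
  simp

lemma finrank_model : Module.finrank ℝ (EuclideanSpace ℝ (Fin 1) × EuclideanSpace ℝ (Fin 2) ×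
    EuclideanSpace ℝ (Fin 2) × EuclideanSpace ℝ (Fin 2)) =
    Module.finrank ℝ (EuclideanSpace ℝ (Fin 7)) := by
  simp

end Vale.Agent.P103
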