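import Vale.Agent.P103.Sphere
import Vale.Agent.P103.Chain

/-! The tautological line bundle of the sphere has sections over singular simplices. -/

namespace Vale.Agent.P103

open Filter Topology Set ComplexConjugate

/-- Membership in the tautological line over a point of the sphere. -/
def InL (n : S2) (v : ℂ × ℂ) : Prop :=
  xi n * v.2 = (1 - (eta n : ℂ)) * v.1 ∧ conj (xi n) * v.1 = (1 + (eta n : ℂ)) * v.2

/-- Twice the projection on the tautological line. -/
noncomputable def Pr (n : S2) (v : ℂ × ℂ) : ℂ × ℂ :=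
  ((1 + (eta n : ℂ)) * v.1 + xi n * v.2, conj (xi n) * v.1 + (1 - (eta n : ℂ)) * v.2)

lemma xi_conj (n : S2) : xi n * conj (xi n) = 1 - (eta n : ℂ) ^ 2 := by
  rw [Complex.mul_conj, Complex.normSq_eq_norm_sq]
  have := sph_eq n
  have h : ‖xi n‖ ^ 2 = 1 - eta n ^ 2 := by linarith
  rw [h]
  push_cast
  ring

lemma inL_Pr (n : S2) (v : ℂ × ℂ) : InL n (Pr n v) := by
  have h := xi_conj n
  constructor
  · simp only [Pr]
    linear_combination v.1 * h
  · simp only [Pr]
    linear_combination v.2 * h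

lemma Pr_ne {n m : S2} {v : ℂ × ℂ} (hv : v ≠ 0) (h : InL n v) (hd : dist n m < 2) :
    Pr m v ≠ 0 := by
  intro h0
  have a1 : (1 + (eta m : ℂ)) * v.1 + xi m * v.2 = 0 := congrArg Prod.fst h0
  have a2 : conj (xi m) * v.1 + (1 - (eta m : ℂ)) * v.2 = 0 := congrArg Prod.snd h0
  obtain ⟨b1, b2⟩ := h
  set A : ℝ := eta n + eta m with hA
  set B : ℂ := xi n + xi m with hB
  have hA' : (A : ℂ) = eta n + eta m := by rw [hA]; push_cast; ring
  have hB' : conj B = conj (xi n) + conj (xi m) := by rw [hB, map_add]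
  have c1 : (A : ℂ) * v.1 + B * v.2 = 0 := by rw [hA', hB]; linear_combination a1 + b1
  have c2 : conj B * v.1 - (A : ℂ) * v.2 = 0 := by rw [hA', hB']; linear_combination a2 + b2
  have hD : ((A ^ 2 + ‖B‖ ^ 2 : ℝ) : ℂ) = (A : ℂ) ^ 2 + B * conj B := by
    rw [Complex.mul_conj, Complex.normSq_eq_norm_sq]
    push_cast
    ring
  have d1 : ((A ^ 2 + ‖B‖ ^ 2 : ℝ) : ℂ) * v.1 = 0 := by
    rw [hD]; linear_combination (A : ℂ) * c1 + B * c2
  have d2 : ((A ^ 2 + ‖B‖ ^ 2 : ℝ) : ℂ) * v.2 = 0 := by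
    rw [hD]; linear_combination conj B * c1 - (A : ℂ) * c2
  have hz : ((A ^ 2 + ‖B‖ ^ 2 : ℝ) : ℂ) = 0 := by
    by_contra hne
    apply hv
    exact Prod.ext ((mul_eq_zero.1 d1).resolve_left hne) ((mul_eq_zero.1 d2).resolve_left hne)
  have hz' : A ^ 2 + ‖B‖ ^ 2 = 0 := by exact_mod_cast hz
  have hA0 : A = 0 := by nlinarith [sq_nonneg A, sq_nonneg ‖B‖]
  have hB0 : B = 0 := by
    have : ‖B‖ ^ 2 = 0 := by nlinarith [sq_nonneg A, sq_nonneg ‖B‖]
    simpa using this
  have hm : (m : E3) = -(n : E3) := by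
    apply ext3
    · have : xi (-(n : E3)) = -xi n := by simp [xi]; ring
      rw [this]
      linear_combination hB0
    · have : eta (-(n : E3)) = -eta n := by simp [eta]
      rw [this]
      linarith
  rw [Subtype.dist_eq, hm, dist_eq_norm, sub_neg_eq_add, ← two_smul ℝ, norm_smul,
    mem_sphere_zero_iff_norm.1 n.2] at hd
  norm_num at hd

lemma exists_inL (n : S2) : ∃ v : ℂ × ℂ, v ≠ 0 ∧ InL n v := by
  by_cases h : Pr n (1, 0) = 0
  · refine ⟨Pr n (0, 1), fun h' => ?_, inL_Pr _ _⟩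
    have a1 := congrArg Prod.fst h
    have a2 := congrArg Prod.snd h'
    simp only [Pr, mul_one, mul_zero, add_zero, zero_add, Prod.fst_zero, Prod.snd_zero] at a1 a2
    have : (2 : ℂ) = 0 := by linear_combination a1 + a2
    norm_num at this
  · exact ⟨_, h, inL_Pr _ _⟩

lemma continuous_xi : Continuous fun n : S2 => xi n :=
  contDiff_xi.continuous.comp continuous_subtype_val

lemma continuous_eta : Continuous fun n : S2 => eta n :=
  contDiff_eta.continuous.comp continuous_subtype_val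

lemma continuous_Pr : Continuous fun p : S2 × (ℂ × ℂ) => Pr p.1 p.2 := by
  have h1 : Continuous fun p : S2 × (ℂ × ℂ) => xi p.1 := continuous_xi.comp continuous_fst
  have h2 : Continuous fun p : S2 × (ℂ × ℂ) => (eta p.1 : ℂ) :=
    Complex.continuous_ofReal.comp (continuous_eta.comp continuous_fst)
  have h3 : Continuous fun p : S2 × (ℂ × ℂ) => conj (xi p.1) := Complex.continuous_conj.comp h1
  unfold Pr
  fun_prop

/-- A nonvanishing section of the tautological line over a singular simplex. -/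
def Sec {n : ℕ} (σ : C(Sx n, S2)) (v : C(Sx n, ℂ × ℂ)) : Prop := ∀ s, v s ≠ 0 ∧ InL (σ s) (v s)

lemma Sec.comp {n m : ℕ} {σ : C(Sx n, S2)} {v : C(Sx n, ℂ × ℂ)} (h : Sec σ v) (g : C(Sx m, Sx n)) :
    Sec (σ.comp g) (v.comp g) := fun s => h (g s)

/-- The radial contraction of the simplex. -/
noncomputable def ctr (n : ℕ) : C(unitInterval × Sx n, Sx n) :=
  ⟨fun p => ⟨(1 - (p.1 : ℝ)) • (stdSimplex.vertex (S := ℝ) (0 : Fin (n + 1))).1 + (p.1 : ℝ) • p.2.1,
    convex_stdSimplex ℝ _ (stdSimplex.vertex (S := ℝ) (0 : Fin (n + 1))).2 p.2.2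
      (by linarith [p.1.2.2]) p.1.2.1 (by ring)⟩, by fun_prop⟩

lemma ctr_zero (n : ℕ) (s : Sx n) : ctr n (0, s) = stdSimplex.vertex 0 := by
  apply Subtype.ext
  simp [ctr]

lemma ctr_one (n : ℕ) (s : Sx n) : ctr n (1, s) = s := by
  apply Subtype.ext
  simp [ctr]

lemma exists_sec {n : ℕ} (σ : C(Sx n, S2)) : ∃ v, Sec σ v := by
  have : CompactSpace (Sx n) := isCompact_iff_compactSpace.1 (isCompact_stdSimplex ℝ _)
  let g : C(unitInterval × Sx n, S2) := σ.comp (ctr n)
  obtain ⟨δ, hδ, hg⟩ := Metric.uniformContinuous_iff.1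
    (CompactSpace.uniformContinuous_of_continuous g.continuous) 2 (by norm_num)
  obtain ⟨N, hN⟩ := exists_nat_one_div_lt hδ
  let t : ℕ → unitInterval := fun k => Set.projIcc 0 1 zero_le_one ((k : ℝ) / (N + 1))
  have ht : ∀ k, dist (t k) (t (k + 1)) < δ := by
    intro k
    refine lt_of_le_of_lt ?_ hN
    rw [Subtype.dist_eq, Real.dist_eq]
    refine (Set.abs_projIcc_sub_projIcc zero_le_one).trans (le_of_eq ?_)
    have : (k : ℝ) / (N + 1) - ((k + 1 : ℕ) : ℝ) / (N + 1) = -(1 / (N + 1)) := by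
      push_cast; ring
    rw [this, abs_neg, abs_of_nonneg (by positivity)]
  have key : ∀ k, ∃ v : C(Sx n, ℂ × ℂ), ∀ s, v s ≠ 0 ∧ InL (g (t k, s)) (v s) := by
    intro k
    induction k with
    | zero =>
      obtain ⟨v, hv, hL⟩ := exists_inL (σ (stdSimplex.vertex 0))
      refine ⟨ContinuousMap.const _ v, fun s => ⟨hv, ?_⟩⟩
      have : t 0 = 0 := by simp [t]
      rw [this]
      simp only [g, ContinuousMap.comp_apply, ctr_zero]
      exact hL
    | succ k ih =>
      obtain ⟨v, hv⟩ := ih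
      have hc : Continuous fun s : Sx n => (g (t (k + 1), s), v s) :=
        (g.continuous.comp (continuous_const.prodMk continuous_id)).prodMk v.continuous
      refine ⟨⟨fun s => Pr (g (t (k + 1), s)) (v s), continuous_Pr.comp hc⟩,
        fun s => ⟨Pr_ne (hv s).1 (hv s).2 (hg ?_), inL_Pr _ _⟩⟩
      rw [Prod.dist_eq, dist_self]
      exact max_lt (ht k) hδ
  obtain ⟨v, hv⟩ := key (N + 1)
  refine ⟨v, fun s => ?_⟩
  have : t (N + 1) = 1 := by
    simp only [t]
    rw [Nat.cast_succ, div_self (by positivity)]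
    exact Set.projIcc_right _
  have h := hv s
  rw [this] at h
  simpa only [g, ContinuousMap.comp_apply, ctr_one] using h

lemma parallel {n : S2} {a b : ℂ × ℂ} (ha : InL n a) (hb : InL n b) : a.1 * b.2 = a.2 * b.1 := by
  obtain ⟨a1, a2⟩ := ha
  obtain ⟨b1, b2⟩ := hb
  linear_combination (1 / 2 : ℂ) * (a.2 * b1 - b.2 * a1 + b.1 * a2 - a.1 * b2)

lemma exists_log {n : ℕ} {σ : C(Sx n, S2)} {a b : C(Sx n, ℂ × ℂ)} (ha : Sec σ a) (hb : Sec σ b) :
    ∃ φ : C(Sx n, ℂ), ∀ s, b s = Complex.exp (φ s) • a s := by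
  have : ContractibleSpace (Sx n) :=
    (convex_stdSimplex ℝ (Fin (n + 1))).contractibleSpace ⟨_, (stdSimplex.vertex 0).2⟩
  have : LocallyPathConnectedSpace (Sx n) :=
    (convex_stdSimplex ℝ (Fin (n + 1))).locallyPathConnectedSpace
  have hden : ∀ s, (a s).1 * conj (a s).1 + (a s).2 * conj (a s).2 ≠ 0 := by
    intro s h0
    rw [Complex.mul_conj, Complex.mul_conj, ← Complex.ofReal_add, Complex.ofReal_eq_zero] at h0
    have h1 := Complex.normSq_nonneg (a s).1
    have h2 := Complex.normSq_nonneg (a s).2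
    exact (ha s).1 (Prod.ext (Complex.normSq_eq_zero.1 (by linarith))
      (Complex.normSq_eq_zero.1 (by linarith)))
  let r : C(Sx n, ℂ) := ⟨fun s => (conj (a s).1 * (b s).1 + conj (a s).2 * (b s).2) /
    ((a s).1 * conj (a s).1 + (a s).2 * conj (a s).2), by
      have h1 : Continuous fun s => conj (a s).1 := Complex.continuous_conj.comp (by fun_prop)
      have h2 : Continuous fun s => conj (a s).2 := Complex.continuous_conj.comp (by fun_prop)
      exact Continuous.div (by fun_prop) (by fun_prop) hden⟩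
  have hr : ∀ s, b s = r s • a s := by
    intro s
    have hp := parallel (ha s).2 (hb s).2
    have hd := hden s
    refine Prod.ext ?_ ?_
    · simp only [r, ContinuousMap.coe_mk, Prod.smul_fst, smul_eq_mul]
      rw [div_mul_eq_mul_div, eq_div_iff hd]
      linear_combination (-conj (a s).2) * hp
    · simp only [r, ContinuousMap.coe_mk, Prod.smul_snd, smul_eq_mul]
      rw [div_mul_eq_mul_div, eq_div_iff hd]
      linear_combination (conj (a s).1) * hp
  have hr0 : ∀ s, r s ∈ ({0}ᶜ : Set ℂ) := by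
    intro s h0
    have : r s = 0 := h0
    exact (hb s).1 (by rw [hr s, this, zero_smul])
  obtain ⟨φ, ⟨-, hφ⟩, -⟩ := Complex.isCoveringMapOn_exp.existsUnique_continuousMap_lifts r
    (a₀ := stdSimplex.vertex 0) (e₀ := Complex.log (r (stdSimplex.vertex 0)))
    (Complex.exp_log (hr0 _)) hr0
  refine ⟨φ, fun s => ?_⟩
  rw [hr s, ← congrFun hφ s]
  rfl

lemma log_unique {n : ℕ} {a : C(Sx n, ℂ × ℂ)} (ha : ∀ s, a s ≠ 0) {φ ψ : C(Sx n, ℂ)}
    (h : ∀ s, Complex.exp (φ s) • a s = Complex.exp (ψ s) • a s) (s t : Sx n) :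
    φ s - φ t = ψ s - ψ t := by
  have : PreconnectedSpace (Sx n) :=
    isPreconnected_iff_preconnectedSpace.1 (convex_stdSimplex ℝ (Fin (n + 1))).isPreconnected
  have h1 : ∀ s, Complex.exp (φ s - ψ s) = 1 := fun s => by
    rw [Complex.exp_sub, smul_left_injective ℂ (ha s) (h s), div_self (Complex.exp_ne_zero _)]
  have := Complex.isCoveringMap_exp.const_of_comp (g := fun s => φ s - ψ s) (by fun_prop)
    (fun s t => Subtype.ext (by simp only [h1])) s t
  linear_combination this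

end Vale.Agent.P103
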