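import Vale.Agent.P103.Cut

/-! Coordinates on the two-sphere. -/

namespace Vale.Agent.P103

open Filter Topology Set
open scoped Manifold

/-- Euclidean three-space. -/
abbrev E3 : Type := EuclideanSpace ℝ (Fin 3)

/-- The unit two-sphere. -/
abbrev S2 : Type := Metric.sphere (0 : E3) 1

/-- A vector from its horizontal and vertical parts. -/
noncomputable def mk3 (w : ℂ) (h : ℝ) : E3 := WithLp.toLp 2 ![w.re, w.im, h]

/-- Horizontal part. -/
noncomputable def xi (n : E3) : ℂ := (n 0 : ℂ) + (n 1 : ℂ) * Complex.I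

/-- Vertical part. -/
noncomputable def eta (n : E3) : ℝ := n 2

@[simp] lemma xi_mk3 (w : ℂ) (h : ℝ) : xi (mk3 w h) = w := by
  simp [xi, mk3]

@[simp] lemma eta_mk3 (w : ℂ) (h : ℝ) : eta (mk3 w h) = h := by
  simp [eta, mk3]

lemma mk3_xi_eta (n : E3) : mk3 (xi n) (eta n) = n := by
  ext i
  fin_cases i <;> simp [mk3, xi, eta]

lemma ext3 {n m : E3} (h1 : xi n = xi m) (h2 : eta n = eta m) : n = m := by
  rw [← mk3_xi_eta n, ← mk3_xi_eta m, h1, h2]

lemma normsq_mk3 (w : ℂ) (h : ℝ) : ‖mk3 w h‖ ^ 2 = ‖w‖ ^ 2 + h ^ 2 := by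
  rw [EuclideanSpace.real_norm_sq_eq, Fin.sum_univ_three, Complex.sq_norm, Complex.normSq_apply]
  simp [mk3]
  ring

lemma mk3_mem {w : ℂ} {h : ℝ} (H : ‖w‖ ^ 2 + h ^ 2 = 1) : mk3 w h ∈ Metric.sphere (0 : E3) 1 := by
  rw [mem_sphere_zero_iff_norm]
  have := normsq_mk3 w h
  rw [H] at this
  nlinarith [norm_nonneg (mk3 w h)]

lemma sph_eq (n : S2) : ‖xi n‖ ^ 2 + eta n ^ 2 = 1 := by
  rw [← normsq_mk3, mk3_xi_eta, mem_sphere_zero_iff_norm.1 n.2]
  norm_num

lemma eta_le (n : S2) : eta n ≤ 1 := by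
  nlinarith [sph_eq n, sq_nonneg ‖xi n‖]

lemma le_eta (n : S2) : -1 ≤ eta n := by
  nlinarith [sph_eq n, sq_nonneg ‖xi n‖]

lemma contDiff_eta : ContDiff ℝ 1 eta := by
  unfold eta
  fun_prop

lemma contDiff_xi : ContDiff ℝ 1 xi := by
  have h : ∀ i : Fin 3, ContDiff ℝ 1 fun n : E3 => ((n i : ℝ) : ℂ) := fun i =>
    Complex.ofRealCLM.contDiff.comp (by fun_prop)
  exact (h 0).add ((h 1).mul contDiff_const)

section
variable {E : Type*} [NormedAddCommGroup E] [NormedSpace ℝ E] {x : E}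

lemma cd_mk3 {w : E → ℂ} {h : E → ℝ} (hw : ContDiffAt ℝ 1 w x) (hh : ContDiffAt ℝ 1 h x) :
    ContDiffAt ℝ 1 (fun y => mk3 (w y) (h y)) x := by
  rw [contDiffAt_euclidean]
  intro i
  fin_cases i
  · exact Complex.reCLM.contDiff.contDiffAt.comp x hw
  · exact Complex.imCLM.contDiff.contDiffAt.comp x hw
  · exact hh

end

lemma continuous_mk3 : Continuous fun p : ℂ × ℝ => mk3 p.1 p.2 :=
  continuous_iff_continuousAt.2 fun _ => (cd_mk3 contDiffAt_fst contDiffAt_snd).continuousAt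

/-- Inverse stereographic projection, as a vector. -/
noncomputable def Sv (z : ℂ) : E3 :=
  mk3 ((2 / (‖z‖ ^ 2 + 1)) • z) ((‖z‖ ^ 2 - 1) / (‖z‖ ^ 2 + 1))

lemma Sv_mem (z : ℂ) : Sv z ∈ Metric.sphere (0 : E3) 1 := by
  apply mk3_mem
  rw [norm_smul, Real.norm_of_nonneg (by positivity)]
  field_simp
  ring

/-- Inverse stereographic projection. -/
noncomputable def St (z : ℂ) : S2 := ⟨Sv z, Sv_mem z⟩

lemma contDiff_Sv : ContDiff ℝ 1 Sv := by
  refine contDiff_iff_contDiffAt.2 fun z => cd_mk3 ?_ ?_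
  · exact (contDiffAt_const.div (contDiff_nsq.contDiffAt.add contDiffAt_const)
      (by positivity)).smul contDiffAt_id
  · exact (contDiff_nsq.contDiffAt.sub contDiffAt_const).div
      (contDiff_nsq.contDiffAt.add contDiffAt_const) (by positivity)

instance fact3 : Fact (Module.finrank ℝ E3 = 2 + 1) := ⟨finrank_euclideanSpace_fin⟩

lemma contMDiff_St : ContMDiff 𝓘(ℝ, ℂ) (𝓡 2) 1 St :=
  contDiff_Sv.contMDiff.codRestrict_sphere Sv_mem

lemma continuous_St : Continuous St := contMDiff_St.continuous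

lemma eta_St (z : ℂ) : eta (St z) = (‖z‖ ^ 2 - 1) / (‖z‖ ^ 2 + 1) := by simp [St, Sv]

lemma xi_St (z : ℂ) : xi (St z) = (2 / (‖z‖ ^ 2 + 1)) • z := by simp [St, Sv]

lemma one_sub_eta_St (z : ℂ) : 1 - eta (St z) = 2 / (‖z‖ ^ 2 + 1) := by
  rw [eta_St]
  field_simp
  ring

lemma eta_St_ne (z : ℂ) : eta (St z) ≠ 1 := by
  intro h
  have := one_sub_eta_St z
  rw [h, sub_self] at this
  have : (0 : ℝ) < 2 / (‖z‖ ^ 2 + 1) := by positivity
  linarith

/-- Stereographic coordinate. -/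
noncomputable def zc (n : E3) : ℂ := (1 - eta n)⁻¹ • xi n

lemma zc_St (z : ℂ) : zc (St z) = z := by
  rw [zc, one_sub_eta_St, xi_St, smul_smul, inv_mul_cancel₀ (by positivity), one_smul]

lemma nsq_zc {n : S2} (h : eta n ≠ 1) : ‖zc n‖ ^ 2 = (1 + eta n) / (1 - eta n) := by
  have h1 : 1 - eta n ≠ 0 := sub_ne_zero.2 h.symm
  have h2 : ‖xi n‖ ^ 2 = (1 + eta n) * (1 - eta n) := by linarith [sph_eq n]
  rw [zc, norm_smul, mul_pow, Real.norm_eq_abs, sq_abs, h2]
  field_simp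

lemma St_zc {n : S2} (h : eta n ≠ 1) : St (zc n) = n := by
  have h1 : 1 - eta n ≠ 0 := sub_ne_zero.2 h.symm
  apply Subtype.ext
  apply ext3
  · rw [xi_St, nsq_zc h, zc, smul_smul]
    have : 2 / ((1 + eta n) / (1 - eta n) + 1) * (1 - eta n)⁻¹ = 1 := by
      field_simp
      ring
    rw [this, one_smul]
  · rw [eta_St, nsq_zc h]
    field_simp
    ring

lemma cd_zc {n : E3} (h : eta n ≠ 1) : ContDiffAt ℝ 1 zc n :=
  ((contDiffAt_const.sub contDiff_eta.contDiffAt).inv (sub_ne_zero.2 h.symm)).smul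
    contDiff_xi.contDiffAt

/-- A smooth function on the sphere that agrees with the stereographic coordinate away from the
north pole. -/
noncomputable def rr (n : E3) : ℂ := (1 - eta n + st (249 / 250) 1 (eta n))⁻¹ • xi n

lemma cd_rr (n : S2) : ContDiffAt ℝ 1 rr n := by
  refine (((contDiffAt_const.sub contDiff_eta.contDiffAt).add
    ((contDiff_st _ _).contDiffAt.comp _ contDiff_eta.contDiffAt)).inv ?_).smul
    contDiff_xi.contDiffAt
  rcases (eta_le n).eq_or_lt with h | h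
  · simp only [Function.comp]
    rw [h, st_one (by norm_num) le_rfl]
    norm_num
  · have := st_nonneg (249 / 250) 1 (eta n)
    simp only [Function.comp]
    linarith

lemma rr_St {u : ℂ} (h : ‖u‖ ≤ 22) : rr (St u) = u := by
  have h1 : eta (St u) ≤ 249 / 250 := by
    rw [eta_St, div_le_iff₀ (by positivity)]
    nlinarith [norm_nonneg u]
  rw [rr, st_zero (by norm_num) h1, add_zero]
  exact zc_St u

/-- The squaring map in ambient coordinates. -/
noncomputable def Gv (n : E3) : E3 :=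
  mk3 ((1 + eta n ^ 2)⁻¹ • xi n ^ 2) (2 * eta n / (1 + eta n ^ 2))

lemma contDiff_Gv : ContDiff ℝ 1 Gv := by
  refine contDiff_iff_contDiffAt.2 fun z => cd_mk3 ?_ ?_
  · exact ((contDiffAt_const.add (contDiff_eta.contDiffAt.pow 2)).inv (by positivity)).smul
      (contDiff_xi.contDiffAt.pow 2)
  · exact (contDiffAt_const.mul contDiff_eta.contDiffAt).div
      (contDiffAt_const.add (contDiff_eta.contDiffAt.pow 2)) (by positivity)

lemma St_sq {n : S2} (h : eta n ≠ 1) : (St (zc n ^ 2) : E3) = Gv n := by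
  have h1 : 1 - eta n ≠ 0 := sub_ne_zero.2 h.symm
  apply ext3
  · rw [xi_St, norm_pow, nsq_zc h, zc, smul_pow, smul_smul, Gv, xi_mk3]
    congr 1
    field_simp
    ring
  · rw [eta_St, norm_pow, nsq_zc h, Gv, eta_mk3]
    field_simp
    ring

lemma xi_pole {n : S2} (h : eta n = 1) : xi n = 0 := by
  have := sph_eq n
  rw [h] at this
  have h2 : ‖xi n‖ ^ 2 = 0 := by linarith
  simpa using h2

lemma Gv_pole {n : S2} (h : eta n = 1) : Gv n = n := by
  apply ext3
  · simp [Gv, xi_pole h]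
  · rw [Gv, eta_mk3, h]
    norm_num

/-- The north pole. -/
noncomputable def NP : S2 := ⟨mk3 0 1, mk3_mem (by simp)⟩

lemma eq_NP {n : S2} (h : eta n = 1) : n = NP := by
  apply Subtype.ext
  apply ext3
  · simp [NP, xi_pole h]
  · simp [NP, h]

lemma dist_St_NP (z : ℂ) : dist (St z) NP ^ 2 = 4 / (‖z‖ ^ 2 + 1) := by
  rw [Subtype.dist_eq, dist_eq_norm]
  have : (St z : E3) - NP = mk3 (xi (St z)) (eta (St z) - 1) := by
    ext i
    fin_cases i <;> simp [mk3, xi, eta, NP]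
  rw [this, normsq_mk3, xi_St, eta_St, norm_smul, Real.norm_of_nonneg (by positivity)]
  field_simp
  ring

end Vale.Agent.P103
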